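import Crest.Agent.R9.Curve

set_option autoImplicit false

namespace Crest.Agent.R9

/-- A multiplicative correspondence `Kˣ/constants ≃ Lˣ/constants`, as a relation. -/
structure Corr (K L : Type*) [Field K] [Field L] where
  R : K → L → Prop
  ne_left : ∀ {u v}, R u v → u ≠ 0
  ne_right : ∀ {u v}, R u v → v ≠ 0
  ex_right : ∀ {u}, u ≠ 0 → ∃ v, R u v
  ex_left : ∀ {v}, v ≠ 0 → ∃ u, R u v
  mul : ∀ {u v u' v'}, R u v → R u' v' → R (u * u') (v * v')
  smul_left : ∀ {u v e}, R u v → Const e → e ≠ 0 → R (e * u) v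
  smul_right : ∀ {u v e}, R u v → Const e → e ≠ 0 → R u (e * v)
  uniq_left : ∀ {u u' v}, R u v → R u' v → Const (u' / u)
  uniq_right : ∀ {u v v'}, R u v → R u v' → Const (v' / v)

namespace Corr
variable {K L : Type*} [Field K] [Field L] (C : Corr K L)

/-- the inverse correspondence -/
def symm : Corr L K where
  R v u := C.R u v
  ne_left := C.ne_right
  ne_right := C.ne_left
  ex_right := C.ex_left
  ex_left := C.ex_right
  mul := C.mul
  smul_left := C.smul_right
  smul_right := C.smul_left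
  uniq_left := C.uniq_right
  uniq_right := C.uniq_left

variable {C}

lemma of_const_right {u : K} {v v' : L} (h : C.R u v) (hv' : v' ≠ 0) (hc : Const (v' / v)) :
    C.R u v' := by
  have hv := C.ne_right h
  have := C.smul_right h hc (div_ne_zero hv' hv)
  rwa [div_mul_cancel₀ _ hv] at this

lemma of_const_left {u u' : K} {v : L} (h : C.R u v) (hu' : u' ≠ 0) (hc : Const (u' / u)) :
    C.R u' v := of_const_right (C := C.symm) h hu' hc

lemma one : C.R 1 1 := by
  obtain ⟨v, hv⟩ := C.ex_right (one_ne_zero (α := K))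
  have h2 := C.mul hv hv
  rw [mul_one] at h2
  have h3 := C.uniq_right hv h2
  rw [mul_div_cancel_right₀ _ (C.ne_right hv)] at h3
  exact of_const_right hv one_ne_zero (by simpa using h3.inv)

lemma const_const {a : K} {b : L} (ha : Const a) (ha0 : a ≠ 0) (hb : Const b) (hb0 : b ≠ 0) :
    C.R a b := by
  simpa using C.smul_right (C.smul_left one ha ha0) hb hb0

lemma const_right {a : K} {b : L} (h : C.R a b) (ha : Const a) : Const b := by
  simpa using C.uniq_right (const_const ha (C.ne_left h) Const.one one_ne_zero) h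

lemma const_left {a : K} {b : L} (h : C.R a b) (hb : Const b) : Const a :=
  const_right (C := C.symm) h hb

lemma inv {u : K} {v : L} (h : C.R u v) : C.R u⁻¹ v⁻¹ := by
  have hu := C.ne_left h
  have hv := C.ne_right h
  obtain ⟨w, hw⟩ := C.ex_right (inv_ne_zero hu)
  have h2 := C.mul h hw
  rw [mul_inv_cancel₀ hu] at h2
  have h3 := (const_right h2 Const.one).inv
  refine of_const_right hw (inv_ne_zero hv) ?_
  convert h3 using 1
  rw [mul_inv, div_eq_mul_inv]

lemma div {u u' : K} {v v' : L} (h : C.R u v) (h' : C.R u' v') : C.R (u / u') (v / v') := by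
  rw [div_eq_mul_inv, div_eq_mul_inv]; exact C.mul h (inv h')

lemma pow {u : K} {v : L} (h : C.R u v) (n : ℕ) : C.R (u ^ n) (v ^ n) := by
  induction n with
  | zero => simpa using one
  | succ n ih => rw [pow_succ, pow_succ]; exact C.mul ih h

variable (C)

/-- Steinberg compatibility -/
def Stein : Prop :=
  ∀ (f : K) (g g' : L), C.R f g → C.R (1 - f) g' → ∀ D₁ D₂ : Der L, D₁ g * D₂ g' = D₂ g * D₁ g'

/-- preservation of dependence -/
def DepPres : Prop :=
  ∀ (x u : K) (x' u' : L), C.R x x' → C.R u u' → Dep x u → Dep x' u'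

/-- preservation of lines -/
def LinePres : Prop :=
  ∀ (x : K) (X P : L), ¬ Const x → C.R x X → C.R (x + 1) P →
    ∃ a b : L, Const a ∧ Const b ∧ a ≠ 0 ∧ b ≠ 0 ∧ P = a * X + b

variable {C}

lemma Stein.depPres (p : ℕ) [Fact p.Prime] [CharP K p] (hS : C.Stein) : C.DepPres := by
  intro x u x' u' hx hu hdep
  have hone : ∀ w : K, (w = 0 ∨ ∃ w', C.R w w' ∧ Dep x' w') →
      (1 - w = 0 ∨ ∃ w', C.R (1 - w) w' ∧ Dep x' w') := by
    intro w hw
    rcases hw with rfl | ⟨w', hw, hw'⟩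
    · right; exact ⟨1, by simpa using one, Const.one.dep _⟩
    by_cases h1 : 1 - w = 0
    · exact Or.inl h1
    right
    obtain ⟨w'', hw''⟩ := C.ex_right h1
    refine ⟨w'', hw'', ?_⟩
    by_cases hc : Const w'
    · exact (const_right hw'' (Const.one.sub (const_left hw hc))).dep _
    · intro D hD
      simp only [Const, not_forall] at hc
      obtain ⟨D₁, hD₁⟩ := hc
      have := hS w w' w'' hw hw'' D₁ D
      rw [hw' D hD, zero_mul] at this
      exact (mul_eq_zero.1 this).resolve_left hD₁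
  have hmul : ∀ a b : K, (a = 0 ∨ ∃ w', C.R a w' ∧ Dep x' w') →
      (b = 0 ∨ ∃ w', C.R b w' ∧ Dep x' w') → (a * b = 0 ∨ ∃ w', C.R (a * b) w' ∧ Dep x' w') := by
    rintro a b (rfl | ⟨a', ha, ha'⟩) (rfl | ⟨b', hb, hb'⟩)
    · simp
    · simp
    · simp
    · exact Or.inr ⟨a' * b', C.mul ha hb, ha'.mul hb'⟩
  have hinv : ∀ a : K, (a = 0 ∨ ∃ w', C.R a w' ∧ Dep x' w') →
      (a⁻¹ = 0 ∨ ∃ w', C.R a⁻¹ w' ∧ Dep x' w') := by
    rintro a (rfl | ⟨a', ha, ha'⟩)
    · simp
    · exact Or.inr ⟨a'⁻¹, inv ha, ha'.inv⟩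
  have hconst : ∀ a : K, Const a → (a = 0 ∨ ∃ w', C.R a w' ∧ Dep x' w') := by
    intro a ha
    by_cases h0 : a = 0
    · exact Or.inl h0
    · exact Or.inr ⟨1, const_const ha h0 Const.one one_ne_zero, Const.one.dep _⟩
  let S : Subfield K :=
    { carrier := {w | w = 0 ∨ ∃ w', C.R w w' ∧ Dep x' w'}
      mul_mem' := fun {a b} ha hb => hmul a b ha hb
      one_mem' := hconst 1 Const.one
      zero_mem' := Or.inl rfl
      neg_mem' := fun {a} ha => by
        have := hmul (-1) a (hconst _ Const.one.neg) ha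
        rwa [neg_one_mul] at this
      inv_mem' := hinv
      add_mem' := fun {a b} ha hb => by
        by_cases ha0 : a = 0
        · subst ha0; rwa [zero_add]
        have := hmul a _ ha (hone _ (hmul (-1) _ (hconst _ Const.one.neg) (hmul b _ hb (hinv a ha))))
        have e : a * (1 - -1 * (b * a⁻¹)) = a + b := by field_simp; ring
        rwa [e] at this }
  have hu2 : u ∈ S := Dep.mem p hdep S hconst (Or.inr ⟨x', hx, Dep.self _⟩)
  rcases hu2 with h0 | ⟨w', hw, hw'⟩
  · exact absurd h0 (C.ne_left hu)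
  · have := ((C.uniq_right hw hu).dep x').mul hw'
    rwa [div_mul_cancel₀ _ (C.ne_right hw)] at this

end Corr

section
variable {K : Type*} [Field K]

lemma not_const_add_one_div_pow {x : K} (hx : ¬ Const x) (n : ℕ) : ¬ Const ((x + 1) / x ^ n) := by
  intro h
  obtain ⟨E, hE⟩ := exists_euler hx
  have hx0 := ne_zero_of_not_const hx
  have h1 := h E
  rw [D_div, euler_pow hE, map_add, hE] at h1
  simp only [Derivation.map_one_eq_zero, add_zero] at h1
  have h2 : (x ^ n)⁻¹ ^ 2 ≠ 0 := pow_ne_zero _ (inv_ne_zero (pow_ne_zero _ hx0))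
  have h3 := (mul_eq_zero.1 h1).resolve_left h2
  have h4 : x ^ n * (x - (x + 1) * n) = 0 := by linear_combination h3
  have h5 := (mul_eq_zero.1 h4).resolve_left (pow_ne_zero _ hx0)
  have h6 := congrArg E h5
  rw [map_sub, D_mul, map_add, hE, Const.natCast n E] at h6
  simp only [Derivation.map_one_eq_zero, add_zero, map_zero, mul_zero, zero_add] at h6
  have h7 : (n : K) = 0 := by linear_combination h6 - h5
  rw [h7] at h6
  exact hx0 (by linear_combination h6)

lemma add_one_ne_zero {x : K} (hx : ¬ Const x) : x + 1 ≠ 0 := by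
  intro h
  apply hx
  rw [eq_neg_of_add_eq_zero_left h]; exact Const.one.neg

lemma not_const_of_not_dep {x y : K} (h : ¬ Dep x y) : ¬ Const y := fun hc => h (hc.dep x)

lemma not_const_div {x y : K} (hx : ¬ Const x) (h : ¬ Dep x y) : ¬ Const (x / y) := by
  intro hc
  apply h
  have hx0 := ne_zero_of_not_const hx
  have hy0 := ne_zero_of_not_const (not_const_of_not_dep h)
  have := (Dep.self x).div (hc.dep x)
  rwa [div_div_cancel₀ hx0] at this

lemma not_dep_or {x x₀ y₀ : K} (hx₀ : ¬ Const x₀) (h : ¬ Dep x₀ y₀) :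
    ¬ Dep x x₀ ∨ ¬ Dep x y₀ := by
  by_contra hcon
  push Not at hcon
  obtain ⟨h1, h2⟩ := hcon
  obtain ⟨E₁, E₂, h11, h12, h21, h22⟩ := exists_euler2 hx₀ h
  have hx0 := ne_zero_of_not_const hx₀
  have hy0 := ne_zero_of_not_const (not_const_of_not_dep h)
  have h3 : (E₂ x • E₁ - E₁ x • E₂) x = 0 := by
    rw [Derivation.sub_apply, D_smul, D_smul]; ring
  have h4 := h2 _ h3
  rw [Derivation.sub_apply, D_smul, D_smul, h12, h22] at h4
  have h5 : E₁ x = 0 := by
    have : E₁ x * y₀ = 0 := by linear_combination -h4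
    exact (mul_eq_zero.1 this).resolve_right hy0
  exact hx0 (h11 ▸ h1 _ h5)

lemma curve_one_add_one (x : K) : Curve 1 x (x + 1) :=
  ⟨-1, 1, Const.one.neg, Const.one, neg_ne_zero.2 one_ne_zero, one_ne_zero, by ring⟩

end

namespace Corr
variable {K L : Type*} [Field K] [Field L] {C : Corr K L}

lemma curve_pair (p : ℕ) [Fact p.Prime] [CharP L p] (h1 : C.DepPres) (h2 : C.symm.DepPres)
    {x y : K} {X Y P Q : L} (hx : ¬ Const x) (hy : ¬ Dep x y) (hX : C.R x X) (hY : C.R y Y)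
    (hP : C.R (x + 1) P) (hQ : C.R (y + 1) Q) :
    ∃ d : ℕ, d < p ∧ (d : L) ≠ 0 ∧ Curve d X P ∧ Curve d Y Q := by
  have hy' := not_const_of_not_dep hy
  have hx0 := ne_zero_of_not_const hx
  have hy0 := ne_zero_of_not_const hy'
  have hxy : x - y ≠ 0 := by
    intro h; rw [sub_eq_zero] at h; subst h; exact hy (Dep.self x)
  obtain ⟨I, hI⟩ := C.ex_right hxy
  apply curve_of_inter p (I := I)
  · exact fun h => hx (const_left hX h)
  · exact fun h => hy (h2 _ _ _ _ hX hY h)
  · exact h1 _ _ _ _ hX hP ((Dep.self x).add (Const.one.dep x))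
  · exact h1 _ _ _ _ hY hQ ((Dep.self y).add (Const.one.dep y))
  · exact C.ne_right hP
  · exact C.ne_right hQ
  · exact C.ne_right hI
  · exact fun n h => not_const_add_one_div_pow hx n (const_left (div hP (pow hX n)) h)
  · exact fun n h => not_const_add_one_div_pow hy' n (const_left (div hQ (pow hY n)) h)
  · apply h1 _ _ _ _ (div hX hY) (div hI hY)
    have : (x - y) / y = x / y - 1 := by field_simp
    rw [this]; exact (Dep.self _).sub (Const.one.dep _)
  · apply h1 _ _ _ _ (div hP hQ) (div hI hQ)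
    have h3 := add_one_ne_zero hy'
    have : (x - y) / (y + 1) = (x + 1) / (y + 1) - 1 := by field_simp; ring
    rw [this]; exact (Dep.self _).sub (Const.one.dep _)

lemma exists_global (p : ℕ) [Fact p.Prime] [CharP L p] (h1 : C.DepPres) (h2 : C.symm.DepPres)
    {x₀ y₀ : K} (hx₀ : ¬ Const x₀) (hy₀ : ¬ Dep x₀ y₀) :
    ∃ d : ℕ, d < p ∧ (d : L) ≠ 0 ∧
      ∀ (x : K) (X P : L), ¬ Const x → C.R x X → C.R (x + 1) P → Curve d X P := by
  have hy₀' := not_const_of_not_dep hy₀
  obtain ⟨X₀, hX₀⟩ := C.ex_right (ne_zero_of_not_const hx₀)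
  obtain ⟨Y₀, hY₀⟩ := C.ex_right (ne_zero_of_not_const hy₀')
  obtain ⟨P₀, hP₀⟩ := C.ex_right (add_one_ne_zero hx₀)
  obtain ⟨Q₀, hQ₀⟩ := C.ex_right (add_one_ne_zero hy₀')
  obtain ⟨d, hdp, hd0, hdx, hdy⟩ := curve_pair p h1 h2 hx₀ hy₀ hX₀ hY₀ hP₀ hQ₀
  refine ⟨d, hdp, hd0, ?_⟩
  intro x X P hx hX hP
  rcases not_dep_or (x := x) hx₀ hy₀ with h | h
  · obtain ⟨e, hep, he0, hex, hey⟩ := curve_pair p h1 h2 hx h hX hX₀ hP hP₀
    have := Curve.unique (fun h => hx₀ (const_left hX₀ h)) hd0 he0 hdx hey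
    rwa [CharP.natCast_injOn_Iio L p hdp hep this]
  · obtain ⟨e, hep, he0, hex, hey⟩ := curve_pair p h1 h2 hx h hX hY₀ hP hQ₀
    have := Curve.unique (fun h => hy₀' (const_left hY₀ h)) hd0 he0 hdy hey
    rwa [CharP.natCast_injOn_Iio L p hdp hep this]

end Corr

lemma const_of_pow {K : Type*} [Field K] {u : K} {d : ℕ} (hd : (d : K) ≠ 0) (hu : u ≠ 0)
    (h : Const (u ^ d)) : Const u := by
  intro D
  have := h D
  rw [D_pow] at this
  exact (mul_eq_zero.1 this).resolve_left (mul_ne_zero hd (pow_ne_zero _ hu))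

lemma dep_of_pow {K : Type*} [Field K] {x u : K} {d : ℕ} (hd : (d : K) ≠ 0) (hu : u ≠ 0)
    (h : Dep x (u ^ d)) : Dep x u := by
  intro D hD
  have := h D hD
  rw [D_pow] at this
  exact (mul_eq_zero.1 this).resolve_left (mul_ne_zero hd (pow_ne_zero _ hu))

lemma exists_pow_inv (p : ℕ) [hp : Fact p.Prime] {K : Type*} [Field K] [CharP K p] {d : ℕ}
    (hd : (d : K) ≠ 0) {u : K} (hu : u ≠ 0) : ∃ w : K, w ≠ 0 ∧ Const (w ^ d / u) := by
  have hcop : Nat.Coprime d p := by
    rw [Nat.coprime_comm, Nat.Prime.coprime_iff_not_dvd hp.out]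
    intro h; exact hd ((CharP.cast_eq_zero_iff K p d).2 h)
  obtain ⟨e, he⟩ := Nat.exists_mul_mod_eq_one_of_coprime hcop hp.out.one_lt
  have he' : d * e % p = 1 := by first | exact he | exact he.2
  refine ⟨u ^ e, pow_ne_zero _ hu, ?_⟩
  have h1 : (u ^ e) ^ d / u = (u ^ (d * e / p)) ^ p := by
    rw [← pow_mul, ← pow_mul, mul_comm e d]
    conv_lhs => rw [← Nat.div_add_mod (d * e) p, he']
    rw [pow_succ, mul_div_cancel_right₀ _ hu, mul_comm]
  rw [h1]; exact Const.pow_char p _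

namespace Corr
variable {K L : Type*} [Field K] [Field L]

/-- the `d`-th power of a correspondence -/
def powCorr (C : Corr K L) (p : ℕ) [Fact p.Prime] [CharP K p] (d : ℕ) (hd : (d : K) ≠ 0) :
    Corr K L where
  R u v := C.R (u ^ d) v
  ne_left := by
    intro u v h hu
    have hd0 : d ≠ 0 := by rintro rfl; simp at hd
    apply C.ne_left h; rw [hu, zero_pow hd0]
  ne_right := C.ne_right
  ex_right := fun hu => C.ex_right (pow_ne_zero _ hu)
  ex_left := by
    intro v hv
    obtain ⟨u, hu⟩ := C.ex_left hv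
    obtain ⟨w, hw, hw'⟩ := exists_pow_inv p hd (C.ne_left hu)
    exact ⟨w, of_const_left hu (pow_ne_zero _ hw) hw'⟩
  mul := by
    intro u v u' v' h h'
    rw [mul_pow]; exact C.mul h h'
  smul_left := by
    intro u v e h he he0
    rw [mul_pow]; exact C.smul_left h (he.pow d) (pow_ne_zero _ he0)
  smul_right := C.smul_right
  uniq_left := by
    intro u u' v h h'
    have hd0 : d ≠ 0 := by rintro rfl; simp at hd
    have hu : u ≠ 0 := by intro hu; apply C.ne_left h; rw [hu, zero_pow hd0]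
    have hu' : u' ≠ 0 := by intro hu; apply C.ne_left h'; rw [hu, zero_pow hd0]
    apply const_of_pow hd (div_ne_zero hu' hu)
    rw [div_pow]; exact C.uniq_left h h'
  uniq_right := C.uniq_right

variable {C : Corr K L} (p : ℕ) [Fact p.Prime] [CharP K p] {d : ℕ} (hd : (d : K) ≠ 0)

lemma powCorr_depPres (h : C.DepPres) : (C.powCorr p d hd).DepPres := by
  intro x u x' u' hx hu hdep
  apply h _ _ _ _ hx hu
  intro D hD
  have hx0 := (C.powCorr p d hd).ne_left hx
  have : D x = 0 := dep_of_pow hd hx0 (Dep.self (x ^ d)) D hD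
  exact (hdep.pow d) D this

lemma powCorr_symm_depPres (h : C.symm.DepPres) : (C.powCorr p d hd).symm.DepPres := by
  intro x' u' x u hx hu hdep
  have h1 : Dep (x ^ d) (u ^ d) := h _ _ _ _ hx hu hdep
  have hu0 := (C.powCorr p d hd).ne_left hu
  apply dep_of_pow hd hu0
  intro D hD
  exact h1 D (((Dep.self x).pow d) D hD)

lemma powCorr_linePres
    (h : ∀ (x : K) (X P : L), ¬ Const x → C.R x X → C.R (x + 1) P → Curve d X P) :
    (C.powCorr p d hd).LinePres := by
  intro x X P hx hX hP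
  obtain ⟨X₀, hX₀⟩ := C.ex_right (ne_zero_of_not_const hx)
  obtain ⟨P₀, hP₀⟩ := C.ex_right (add_one_ne_zero hx)
  obtain ⟨l, m, hl, hm, hl0, hm0, e⟩ := h x X₀ P₀ hx hX₀ hP₀
  have h1 := C.uniq_right (pow hP₀ d) hP
  have h2 := C.uniq_right hX (pow hX₀ d)
  have hX0 := C.ne_right hX
  have hP0 := C.ne_right hP
  have hX₀0 := C.ne_right (pow hX₀ d)
  have hP₀0 := C.ne_right (pow hP₀ d)
  refine ⟨P / P₀ ^ d * m * (X₀ ^ d / X), -(P / P₀ ^ d * m * l), (h1.mul hm).mul h2,
    ((h1.mul hm).mul hl).neg, mul_ne_zero (mul_ne_zero (div_ne_zero hP0 hP₀0) hm0)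
      (div_ne_zero hX₀0 hX0), neg_ne_zero.2 (mul_ne_zero (mul_ne_zero (div_ne_zero hP0 hP₀0) hm0) hl0), ?_⟩
  have : P = P / P₀ ^ d * P₀ ^ d := by field_simp
  conv_lhs => rw [this, e]
  rw [e]
  field_simp
  ring

include p in
/-- if `C` preserves lines and both directions preserve dependence, so does the inverse -/
lemma linePres_symm [Fact p.Prime] [CharP K p] (h1 : C.DepPres) (h2 : C.symm.DepPres) (hL : C.LinePres)
    {x₀ y₀ : K} (hx₀ : ¬ Const x₀) (hy₀ : ¬ Dep x₀ y₀) : C.symm.LinePres := by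
  obtain ⟨X₀, hX₀⟩ := C.ex_right (ne_zero_of_not_const hx₀)
  obtain ⟨Y₀, hY₀⟩ := C.ex_right (ne_zero_of_not_const (not_const_of_not_dep hy₀))
  obtain ⟨P₀, hP₀⟩ := C.ex_right (add_one_ne_zero hx₀)
  have hX₀c : ¬ Const X₀ := fun h => hx₀ (const_left hX₀ h)
  obtain ⟨e, hep, he0, he⟩ := exists_global (C := C.symm) p h2 h1 (x₀ := X₀) (y₀ := Y₀) hX₀c
    (fun h => hy₀ (h2 _ _ _ _ hX₀ hY₀ h))
  obtain ⟨a, b, ha, hb, ha0, hb0, hP⟩ := hL x₀ X₀ P₀ hx₀ hX₀ hP₀
  have h3 : Curve e x₀ (x₀ + 1) := by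
    apply he (a / b * X₀)
    · intro h
      apply hX₀c
      have := h.div (ha.div hb)
      rwa [mul_div_cancel_left₀ _ (div_ne_zero ha0 hb0)] at this
    · exact C.smul_right hX₀ (ha.div hb) (div_ne_zero ha0 hb0)
    · have := C.smul_right hP₀ hb.inv (inv_ne_zero hb0)
      have e1 : b⁻¹ * P₀ = a / b * X₀ + 1 := by rw [hP]; field_simp
      rwa [e1] at this
  have h4 := Curve.unique hx₀ he0 (by simp) h3 (curve_one_add_one x₀)
  have h5 : e = 1 := CharP.natCast_injOn_Iio K p hep (Fact.out : p.Prime).one_lt h4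
  subst h5
  intro X x P hX hx hP
  obtain ⟨l, m, hl, hm, hl0, hm0, e⟩ := he X x P hX hx hP
  refine ⟨m, -(m * l), hm, (hm.mul hl).neg, hm0, neg_ne_zero.2 (mul_ne_zero hm0 hl0), ?_⟩
  linear_combination e

end Corr

end Crest.Agent.R9
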