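import Crest.Agent.R9.Deriv

set_option autoImplicit false

namespace Crest.Agent.R9

variable {K : Type*} [Field K]

/-- `P ^ d` is proportional to `x ^ d - λ` with a non-zero constant `λ`. -/
def Curve (d : ℕ) (x P : K) : Prop :=
  ∃ l m : K, Const l ∧ Const m ∧ l ≠ 0 ∧ m ≠ 0 ∧ P ^ d = m * (x ^ d - l)

lemma euler_pow {x : K} {E : Der K} (hE : E x = x) (n : ℕ) : E (x ^ n) = n * x ^ n := by
  rw [D_pow, hE]
  rcases n with _ | n
  · simp
  · simp [pow_succ, mul_assoc]

lemma logD_pow (E : Der K) (P : K) (n : ℕ) : P * E (P ^ n) = n * P ^ n * E P := by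
  rw [D_pow]
  rcases n with _ | n
  · simp
  · simp [pow_succ]; ring

/-- the logarithmic derivative along a curve -/
lemma Curve.logD {d : ℕ} {x P : K} (hx : ¬ Const x) (hd : (d : K) ≠ 0) (h : Curve d x P)
    {E : Der K} (hE : E x = x) :
    ∃ l : K, Const l ∧ l ≠ 0 ∧ P ≠ 0 ∧ E P * (x ^ d - l) = P * x ^ d := by
  obtain ⟨l, m, hl, hm, hl0, hm0, h⟩ := h
  have hx0 := ne_zero_of_not_const hx
  have h1 : E (P ^ d) = m * (d * x ^ d) := by
    rw [h, D_mul, map_sub, hl E, hm E, euler_pow hE]; simp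
  have hP : P ≠ 0 := by
    rintro rfl
    have hd0 : d ≠ 0 := by rintro rfl; simp at hd
    rw [zero_pow hd0, map_zero] at h1
    exact (mul_ne_zero hm0 (mul_ne_zero hd (pow_ne_zero _ hx0))) h1.symm
  refine ⟨l, hl, hl0, hP, ?_⟩
  have h2 := logD_pow E P d
  rw [h1, h] at h2
  have h3 : (d : K) * m ≠ 0 := mul_ne_zero hd hm0
  apply mul_left_cancel₀ h3
  linear_combination -h2

/-- Lemma C: the exponent of a curve is unique mod `p`. -/
lemma Curve.unique {d e : ℕ} {x P : K} (hx : ¬ Const x) (hd : (d : K) ≠ 0) (he : (e : K) ≠ 0)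
    (h : Curve d x P) (h' : Curve e x P) : (d : K) = e := by
  obtain ⟨E, hE⟩ := exists_euler hx
  have hx0 := ne_zero_of_not_const hx
  obtain ⟨l, hl, hl0, hP, h1⟩ := h.logD hx hd hE
  obtain ⟨l', hl', hl0', -, h2⟩ := h'.logD hx he hE
  have h3 : l * x ^ e = l' * x ^ d := by
    have : P * (l * x ^ e - l' * x ^ d) = 0 := by
      linear_combination (x ^ d - l) * h2 - (x ^ e - l') * h1
    rcases mul_eq_zero.1 this with h | h
    · exact absurd h hP
    · exact sub_eq_zero.1 h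
  have h4 := congrArg E h3
  rw [D_mul, D_mul, hl E, hl' E, euler_pow hE, euler_pow hE] at h4
  have h5 : l * x ^ e * ((d : K) - e) = 0 := by
    linear_combination (d : K) * h3 - h4
  rcases mul_eq_zero.1 h5 with h | h
  · exact absurd h (mul_ne_zero hl0 (pow_ne_zero _ hx0))
  · exact sub_eq_zero.1 h

variable (p : ℕ) [hp : Fact p.Prime] [CharP K p]
include hp

/-- if the logarithmic derivative is constant, `P` is a monomial -/
lemma monomial_of_const {x P c : K} {E : Der K} (hx0 : x ≠ 0) (hE : E x = x) (hP : Dep x P)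
    (hP0 : P ≠ 0) (hc : Const c) (h : E P = c * P) : ∃ n : ℕ, Const (P / x ^ n) := by
  obtain ⟨n, -, hn⟩ := exists_nat_eigen p hE hP hP0 hc h
  refine ⟨n, Dep.const hx0 hE (hP.div ((Dep.self x).pow n)) ?_⟩
  rw [D_div, h, euler_pow hE, hn]; ring

/-- one half of Lemma B -/
lemma curve_of_ode {x P a δ : K} {E : Der K} (hx0 : x ≠ 0) (hE : E x = x) (hP : Dep x P)
    (hP0 : P ≠ 0) (ha : a * E P = P) (ha1 : a ≠ 1) (h : E a = δ * (1 - a))
    {d : ℕ} (hd : (d : K) = δ) : Curve d x P := by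
  have hEP : E P ≠ 0 := by
    intro h0; rw [h0, mul_zero] at ha; exact hP0 ha.symm
  have ha0 : a ≠ 0 := by
    rintro rfl; rw [zero_mul] at ha; exact hP0 ha.symm
  have hae : a = P / E P := by field_simp; exact ha
  have hda : Dep x a := by rw [hae]; exact hP.div (hP.deriv hE)
  have h1a : 1 - a ≠ 0 := sub_ne_zero.2 ha1.symm
  have hl : Const ((1 - a) * x ^ d) := by
    apply Dep.const hx0 hE (((Const.one.dep x).sub hda).mul ((Dep.self x).pow d))
    rw [D_mul, euler_pow hE, map_sub, h, hd]; simp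
    ring
  have hne : a * x ^ d ≠ 0 := mul_ne_zero ha0 (pow_ne_zero _ hx0)
  refine ⟨(1 - a) * x ^ d, P ^ d / (a * x ^ d), hl, ?_, mul_ne_zero h1a (pow_ne_zero _ hx0),
    div_ne_zero (pow_ne_zero _ hP0) hne, ?_⟩
  · apply Dep.const hx0 hE ((hP.pow d).div (hda.mul ((Dep.self x).pow d)))
    have h2 := logD_pow E P d
    have h3 : E (a * x ^ d) = d * x ^ d := by
      rw [D_mul, euler_pow hE, h, hd]; ring
    rw [D_div, h3]
    have : a * x ^ d * E (P ^ d) - P ^ d * (d * x ^ d) = 0 := by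
      apply mul_left_cancel₀ hP0
      linear_combination a * x ^ d * h2 + x ^ d * d * P ^ d * ha
    rw [this, mul_zero]
  · field_simp
    ring

/-- Lemma B (the intersection lemma). -/
lemma curve_of_inter {x y P Q I : K} (hx : ¬ Const x) (hy : ¬ Dep x y)
    (hP : Dep x P) (hQ : Dep y Q) (hP0 : P ≠ 0) (hQ0 : Q ≠ 0) (hI0 : I ≠ 0)
    (hPx : ∀ n : ℕ, ¬ Const (P / x ^ n)) (hQy : ∀ n : ℕ, ¬ Const (Q / y ^ n))
    (hI₁ : Dep (x / y) (I / y)) (hI₂ : Dep (P / Q) (I / Q)) :
    ∃ d : ℕ, d < p ∧ (d : K) ≠ 0 ∧ Curve d x P ∧ Curve d y Q := by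
  obtain ⟨E₁, E₂, h11, h12, h21, h22⟩ := exists_euler2 hx hy
  have hx0 := ne_zero_of_not_const hx
  have hy0 : y ≠ 0 := by rintro rfl; exact hy (Const.zero.dep x)
  have hE1P : E₁ P ≠ 0 := by
    intro h
    exact hPx 0 (by simpa using Dep.const hx0 h11 hP h)
  have hE2Q : E₂ Q ≠ 0 := by
    intro h
    exact hQy 0 (by simpa using Dep.const hy0 h22 hQ h)
  have hE2P : E₂ P = 0 := hP _ h21
  have hE1Q : E₁ Q = 0 := hQ _ h12
  set a := P / E₁ P with ha
  set b := Q / E₂ Q with hb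
  have hda : Dep x a := hP.div (hP.deriv h11)
  have hdb : Dep y b := hQ.div (hQ.deriv h22)
  have haP : a * E₁ P = P := by rw [ha]; field_simp
  have hbQ : b * E₂ Q = Q := by rw [hb]; field_simp
  have ha0 : a ≠ 0 := div_ne_zero hP0 hE1P
  have hb0 : b ≠ 0 := div_ne_zero hQ0 hE2Q
  have hnca : ¬ Const a := by
    intro h
    obtain ⟨n, hn⟩ := monomial_of_const p hx0 h11 hP hP0 h.inv
      (by rw [← haP]; field_simp; rw [haP])
    exact hPx n hn
  have hncb : ¬ Const b := by
    intro h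
    obtain ⟨n, hn⟩ := monomial_of_const p hy0 h22 hQ hQ0 h.inv
      (by rw [← hbQ]; field_simp; rw [hbQ])
    exact hQy n hn
  have ha1 : a ≠ 1 := fun h => hnca (h ▸ Const.one)
  have hb1 : b ≠ 1 := fun h => hncb (h ▸ Const.one)
  have hE2a : E₂ a = 0 := hda _ h21
  have hE1b : E₁ b = 0 := hdb _ h12
  -- first relation
  have r1 : E₁ I + E₂ I = I := by
    have h1 : (E₁ + E₂) (x / y) = 0 := by
      rw [D_div, Derivation.add_apply, Derivation.add_apply, h11, h12, h21, h22]; ring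
    have h2 := hI₁ _ h1
    rw [D_div, Derivation.add_apply, Derivation.add_apply, h12, h22] at h2
    have h3 : y * (E₁ I + E₂ I - I) = 0 := by
      have : y⁻¹ ^ 2 ≠ 0 := pow_ne_zero _ (inv_ne_zero hy0)
      have h4 := (mul_eq_zero.1 h2).resolve_left this
      linear_combination h4
    exact sub_eq_zero.1 ((mul_eq_zero.1 h3).resolve_left hy0)
  have r2 : a * E₁ I + b * E₂ I = I := by
    have h1 : (a • E₁ + b • E₂) (P / Q) = 0 := by
      rw [D_div, Derivation.add_apply, Derivation.add_apply, D_smul, D_smul, D_smul, D_smul,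
        hE2P, hE1Q, haP, hbQ]; ring
    have h2 := hI₂ _ h1
    rw [D_div, Derivation.add_apply, Derivation.add_apply, D_smul, D_smul, D_smul, D_smul,
      hE1Q, hbQ] at h2
    have h3 : Q * (a * E₁ I + b * E₂ I - I) = 0 := by
      have : Q⁻¹ ^ 2 ≠ 0 := pow_ne_zero _ (inv_ne_zero hQ0)
      have h4 := (mul_eq_zero.1 h2).resolve_left this
      linear_combination h4
    exact sub_eq_zero.1 ((mul_eq_zero.1 h3).resolve_left hQ0)
  have r3 : E₁ (E₂ I) = E₂ (E₁ I) := by
    have hcx : (⁅E₁, E₂⁆ : Der K) x = 0 := by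
      rw [Derivation.commutator_apply, h21, h11, h21]; simp
    have hcy : (⁅E₁, E₂⁆ : Der K) y = 0 := by
      rw [Derivation.commutator_apply, h22, h12]; simp
    have h1 : (⁅E₁, E₂⁆ : Der K) (x / y) = 0 := by rw [D_div, hcx, hcy]; ring
    have h2 := hI₁ _ h1
    rw [D_div, hcy] at h2
    have : y⁻¹ ^ 2 ≠ 0 := pow_ne_zero _ (inv_ne_zero hy0)
    have h4 := (mul_eq_zero.1 h2).resolve_left this
    rw [mul_zero, sub_zero] at h4
    have h5 := (mul_eq_zero.1 h4).resolve_left hy0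
    rw [Derivation.commutator_apply] at h5
    exact sub_eq_zero.1 h5
  have s1 := congrArg E₁ r1
  have s2 := congrArg E₂ r1
  have s3 := congrArg E₁ r2
  have s4 := congrArg E₂ r2
  rw [map_add] at s1 s2
  rw [map_add, D_mul, D_mul, hE1b] at s3
  rw [map_add, D_mul, D_mul, hE2a] at s4
  -- the separated equation
  have key : E₁ a * (1 - b) = E₂ b * (1 - a) := by
    set A := E₁ I
    set B := E₂ I
    set s := E₁ B
    have t1 : E₁ A = A - s := by linear_combination s1
    have t2 : E₂ B = B - s := by rw [← r3] at s2; linear_combination s2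
    rw [t1] at s3
    rw [← r3, t2] at s4
    have u1 : A * (a - b) = (1 - b) * I := by linear_combination r2 - b * r1
    have u2 : B * (a - b) = (a - 1) * I := by linear_combination a * r1 - r2
    have u3 : A * E₁ a + B * E₂ b = 0 := by linear_combination s3 + s4 - r2 + r1
    apply mul_left_cancel₀ hI0
    linear_combination (a - b) * u3 - E₁ a * u1 - E₂ b * u2
  have h1a : 1 - a ≠ 0 := sub_ne_zero.2 ha1.symm
  have h1b : 1 - b ≠ 0 := sub_ne_zero.2 hb1.symm
  set δ := E₁ a / (1 - a) with hδ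
  have hδ' : δ = E₂ b / (1 - b) := by rw [hδ]; field_simp; linear_combination key
  have hδx : Dep x δ := (hda.deriv h11).div ((Const.one.dep x).sub hda)
  have hδy : Dep y δ := by rw [hδ']; exact (hdb.deriv h22).div ((Const.one.dep y).sub hdb)
  have hδc : Const δ := Dep.const hx0 h11 hδx (hδy _ h12)
  have hEa : E₁ a = δ * (1 - a) := by rw [hδ]; field_simp
  have hEb : E₂ b = δ * (1 - b) := by rw [hδ']; field_simp
  obtain ⟨d, hdp, hd⟩ := exists_nat_eigen p h11 (((Const.one.dep x).sub hda).inv)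
    (inv_ne_zero h1a) hδc (by
      rw [D_inv, map_sub, hEa]; simp only [Derivation.map_one_eq_zero]; field_simp; ring)
  refine ⟨d, hdp, ?_, curve_of_ode p hx0 h11 hP hP0 haP ha1 hEa hd,
    curve_of_ode p hy0 h22 hQ hQ0 hbQ hb1 hEb hd⟩
  intro h0
  rw [← hd, h0, zero_mul] at hEa
  exact hnca (Dep.const hx0 h11 hda hEa)

end Crest.Agent.R9
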