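import Mathlib

set_option autoImplicit false

open Polynomial

namespace Crest.Agent.R9

/-- Absolute derivations of a field. -/
abbrev Der (K : Type*) [Field K] := Derivation ℤ K K

section Basic
variable {K : Type*} [Field K]

/-- constants: killed by every derivation -/
def Const (u : K) : Prop := ∀ D : Der K, D u = 0

/-- `u` depends on `x`: each derivation killing `x` kills `u`. -/
def Dep (x u : K) : Prop := ∀ D : Der K, D x = 0 → D u = 0

lemma D_mul (D : Der K) (a b : K) : D (a * b) = a * D b + b * D a := by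
  rw [D.leibniz]; simp [smul_eq_mul]

lemma D_inv (D : Der K) (a : K) : D a⁻¹ = -(a⁻¹ ^ 2 * D a) := by
  rw [D.leibniz_inv]; simp [smul_eq_mul]

lemma D_div (D : Der K) (a b : K) : D (a / b) = b⁻¹ ^ 2 * (b * D a - a * D b) := by
  rw [D.leibniz_div]; simp [smul_eq_mul]

lemma D_pow (D : Der K) (a : K) (n : ℕ) : D (a ^ n) = n * a ^ (n - 1) * D a := by
  rw [D.leibniz_pow]; simp [smul_eq_mul, mul_assoc]

lemma D_smul (c : K) (D : Der K) (a : K) : (c • D) a = c * D a := by
  rw [Derivation.smul_apply, smul_eq_mul]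

/-- the kernel of a derivation as a subfield -/
def kerField (D : Der K) : Subfield K where
  carrier := {u | D u = 0}
  mul_mem' := by
    intro a b ha hb
    simp only [Set.mem_ofPred_eq] at *
    rw [D_mul, ha, hb]; simp
  one_mem' := by simp
  add_mem' := by
    intro a b ha hb
    simp only [Set.mem_ofPred_eq] at *
    rw [map_add, ha, hb]; simp
  zero_mem' := by simp
  neg_mem' := by
    intro a ha
    simp only [Set.mem_ofPred_eq] at *
    rw [map_neg, ha]; simp
  inv_mem' := by
    intro a ha
    simp only [Set.mem_ofPred_eq] at *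
    rw [D_inv, ha]; simp

lemma mem_kerField (D : Der K) (u : K) : u ∈ kerField D ↔ D u = 0 := Iff.rfl

variable (K) in
/-- the field of constants -/
def Cst : Subfield K := ⨅ D : Der K, kerField D

lemma mem_Cst {u : K} : u ∈ Cst K ↔ Const u := by
  simp [Cst, Subfield.mem_iInf, mem_kerField, Const]

/-- the field of elements depending on `x` -/
def DepField (x : K) : Subfield K := ⨅ D : {D : Der K // D x = 0}, kerField D.1

lemma mem_DepField {x u : K} : u ∈ DepField x ↔ Dep x u := by
  simp [DepField, Subfield.mem_iInf, mem_kerField, Dep]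

lemma Const.zero : Const (0 : K) := mem_Cst.1 (zero_mem _)
lemma Const.one : Const (1 : K) := mem_Cst.1 (one_mem _)
lemma Const.add {a b : K} (ha : Const a) (hb : Const b) : Const (a + b) :=
  mem_Cst.1 (add_mem (mem_Cst.2 ha) (mem_Cst.2 hb))
lemma Const.sub {a b : K} (ha : Const a) (hb : Const b) : Const (a - b) :=
  mem_Cst.1 (sub_mem (mem_Cst.2 ha) (mem_Cst.2 hb))
lemma Const.mul {a b : K} (ha : Const a) (hb : Const b) : Const (a * b) :=
  mem_Cst.1 (mul_mem (mem_Cst.2 ha) (mem_Cst.2 hb))
lemma Const.neg {a : K} (ha : Const a) : Const (-a) :=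
  mem_Cst.1 (neg_mem (mem_Cst.2 ha))
lemma Const.inv {a : K} (ha : Const a) : Const a⁻¹ :=
  mem_Cst.1 (inv_mem (mem_Cst.2 ha))
lemma Const.div {a b : K} (ha : Const a) (hb : Const b) : Const (a / b) :=
  mem_Cst.1 (div_mem (mem_Cst.2 ha) (mem_Cst.2 hb))
lemma Const.pow {a : K} (ha : Const a) (n : ℕ) : Const (a ^ n) :=
  mem_Cst.1 (pow_mem (mem_Cst.2 ha) n)
lemma Const.natCast (n : ℕ) : Const (n : K) := mem_Cst.1 (natCast_mem _ n)

lemma Const.dep {a : K} (ha : Const a) (x : K) : Dep x a := fun D _ => ha D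
lemma Dep.self (x : K) : Dep x x := fun _ h => h
lemma Dep.add {x a b : K} (ha : Dep x a) (hb : Dep x b) : Dep x (a + b) :=
  mem_DepField.1 (add_mem (mem_DepField.2 ha) (mem_DepField.2 hb))
lemma Dep.sub {x a b : K} (ha : Dep x a) (hb : Dep x b) : Dep x (a - b) :=
  mem_DepField.1 (sub_mem (mem_DepField.2 ha) (mem_DepField.2 hb))
lemma Dep.mul {x a b : K} (ha : Dep x a) (hb : Dep x b) : Dep x (a * b) :=
  mem_DepField.1 (mul_mem (mem_DepField.2 ha) (mem_DepField.2 hb))
lemma Dep.neg {x a : K} (ha : Dep x a) : Dep x (-a) :=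
  mem_DepField.1 (neg_mem (mem_DepField.2 ha))
lemma Dep.inv {x a : K} (ha : Dep x a) : Dep x a⁻¹ :=
  mem_DepField.1 (inv_mem (mem_DepField.2 ha))
lemma Dep.div {x a b : K} (ha : Dep x a) (hb : Dep x b) : Dep x (a / b) :=
  mem_DepField.1 (div_mem (mem_DepField.2 ha) (mem_DepField.2 hb))
lemma Dep.pow {x a : K} (ha : Dep x a) (n : ℕ) : Dep x (a ^ n) :=
  mem_DepField.1 (pow_mem (mem_DepField.2 ha) n)

/-- `Dep x` is stable under a derivation `E` with `E x = x`. -/
lemma Dep.deriv {x u : K} {E : Der K} (hE : E x = x) (hu : Dep x u) : Dep x (E u) := by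
  intro D hD
  have h1 : (⁅D, E⁆ : Der K) x = 0 := by
    rw [Derivation.commutator_apply, hE, hD]; simp
  have h2 := hu _ h1
  rw [Derivation.commutator_apply, hu D hD] at h2
  simpa using h2

/-- if `u` depends on `x` and an Euler derivation for `x` kills it, it is constant -/
lemma Dep.const {x u : K} {E : Der K} (hx : x ≠ 0) (hE : E x = x) (hu : Dep x u) (h : E u = 0) :
    Const u := by
  intro D
  have h1 : (D - (D x / x) • E) x = 0 := by
    rw [Derivation.sub_apply, D_smul, hE]; field_simp; ring
  have h2 := hu _ h1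
  rw [Derivation.sub_apply, D_smul, h] at h2
  simpa using h2

lemma ne_zero_of_not_const {x : K} (hx : ¬ Const x) : x ≠ 0 := by
  rintro rfl; exact hx Const.zero

lemma exists_euler {x : K} (hx : ¬ Const x) : ∃ E : Der K, E x = x := by
  simp only [Const, not_forall] at hx
  obtain ⟨D, hD⟩ := hx
  exact ⟨(x / D x) • D, by rw [D_smul]; field_simp⟩

lemma exists_euler2 {x y : K} (hx : ¬ Const x) (hy : ¬ Dep x y) :
    ∃ E₁ E₂ : Der K, E₁ x = x ∧ E₁ y = 0 ∧ E₂ x = 0 ∧ E₂ y = y := by
  obtain ⟨E, hE⟩ := exists_euler hx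
  simp only [Dep, not_forall] at hy
  obtain ⟨D, hD, hD'⟩ := hy
  refine ⟨E - (E y / D y) • D, (y / D y) • D, ?_, ?_, ?_, ?_⟩
  · rw [Derivation.sub_apply, D_smul, hD, hE]; simp
  · rw [Derivation.sub_apply, D_smul]; field_simp; ring
  · rw [D_smul, hD]; simp
  · rw [D_smul]; field_simp

end Basic

section CharP
variable {K : Type*} [Field K] {p : ℕ} [hp : Fact p.Prime] [CharP K p]

variable (p) in
lemma Const.pow_char (a : K) : Const (a ^ p) := by
  intro D
  rw [D_pow, CharP.cast_eq_zero K p]; simp

lemma minpoly_eq_of_pow_mem (M : Subfield K) (hM : ∀ a : K, a ^ p ∈ M) {z : K} (hz : z ∉ M) :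
    minpoly M z = X ^ p - C (⟨z ^ p, hM z⟩ : M) := by
  symm
  apply minpoly.eq_of_irreducible_of_monic
  · apply X_pow_sub_C_irreducible_of_prime hp.out
    intro b hb
    apply hz
    have : (b : K) ^ p = z ^ p := by simpa using congrArg Subtype.val hb
    have h2 : (b : K) = z := frobenius_inj K p (by simpa [frobenius_def] using this)
    rw [← h2]; exact b.2
  · simp [Subfield.algebraMap_ofSubfield]
  · exact monic_X_pow_sub_C _ hp.out.ne_zero

lemma isIntegral_of_pow_mem (M : Subfield K) (hM : ∀ a : K, a ^ p ∈ M) (z : K) :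
    IsIntegral M z := by
  refine ⟨X ^ p - C (⟨z ^ p, hM z⟩ : M), monic_X_pow_sub_C _ hp.out.ne_zero, ?_⟩
  simp [Subfield.algebraMap_ofSubfield]

/-- Lemma A: a derivation killing `M` and not `u`. -/
lemma exists_der (M : Subfield K) (hM : ∀ a : K, a ^ p ∈ M) {u : K} (hu : u ∉ M) :
    ∃ D : Der K, D u = 1 ∧ ∀ m ∈ M, D m = 0 := by
  classical
  obtain ⟨N, hMN, hN⟩ : ∃ N : Subfield K, M ≤ N ∧ Maximal (fun N : Subfield K => u ∉ N) N := by
    apply zorn_le_nonempty₀ {N : Subfield K | u ∉ N} _ M hu
    intro c hc hchain y hy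
    refine ⟨sSup c, ?_, fun z hz => le_sSup hz⟩
    simp only [Set.mem_ofPred_eq]
    rw [Subfield.mem_sSup_of_directedOn ⟨y, hy⟩ hchain.directedOn]
    rintro ⟨s, hs, hus⟩
    exact hc hs hus
  have hN' : ∀ a : K, a ^ p ∈ N := fun a => hMN (hM a)
  have huN : u ∉ N := hN.prop
  have hfin : ∀ z : K, z ∉ N → Module.finrank N (IntermediateField.adjoin N {z}) = p := by
    intro z hz
    rw [IntermediateField.adjoin.finrank (isIntegral_of_pow_mem N hN' z),
      minpoly_eq_of_pow_mem N hN' hz, natDegree_X_pow_sub_C]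
  have htop : ∀ z : K, z ∈ IntermediateField.adjoin N {u} := by
    intro z
    by_contra hz
    have hzN : z ∉ N := fun h => hz ((IntermediateField.adjoin N {u}).algebraMap_mem ⟨z, h⟩)
    have h1 : N ≤ (IntermediateField.adjoin N {z}).toSubfield := fun a ha =>
      (IntermediateField.adjoin N {z}).algebraMap_mem ⟨a, ha⟩
    have h2 : u ∈ IntermediateField.adjoin N {z} := by
      by_contra h
      have := hN.le_of_ge (y := (IntermediateField.adjoin N {z}).toSubfield) h h1
      exact hzN (this (IntermediateField.mem_adjoin_simple_self N z))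
    have h3 : IntermediateField.adjoin N {u} ≤ IntermediateField.adjoin N {z} := by
      rw [IntermediateField.adjoin_simple_le_iff]; exact h2
    haveI : FiniteDimensional N (IntermediateField.adjoin N {z}) :=
      IntermediateField.adjoin.finiteDimensional (isIntegral_of_pow_mem N hN' z)
    have h4 := IntermediateField.eq_of_le_of_finrank_eq h3 (by rw [hfin u huN, hfin z hzN])
    apply hz
    rw [h4]; exact IntermediateField.mem_adjoin_simple_self N z
  have hsurj : Function.Surjective (aeval u : N[X] →ₐ[N] K) := by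
    intro z
    have := htop z
    rw [← IntermediateField.mem_toSubalgebra,
      IntermediateField.adjoin_simple_toSubalgebra_of_isAlgebraic
        (isIntegral_of_pow_mem N hN' u).isAlgebraic, Algebra.adjoin_singleton_eq_range_aeval] at this
    exact this
  have hd : ∀ f : N[X], aeval u f = 0 → aeval u ((derivative' : Derivation N N[X] N[X]) f) = 0 := by
    intro f hf
    obtain ⟨g, rfl⟩ := minpoly.dvd N u hf
    have : CharP N p := inferInstance
    simp only [derivative'_apply, derivative_mul, map_add, map_mul, minpoly.aeval, zero_mul,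
      add_zero]
    rw [minpoly_eq_of_pow_mem N hN' huN]
    simp [derivative_X_pow, CharP.cast_eq_zero]
  let D : Derivation N K K := Derivation.liftOfSurjective hsurj hd
  refine ⟨D.restrictScalars ℤ, ?_, ?_⟩
  · have := Derivation.liftOfSurjective_apply hsurj hd X
    simpa using this
  · intro m hm
    exact D.map_algebraMap ⟨m, hMN hm⟩

variable (p) in
lemma const_iff {u : K} : Const u ↔ ∃ a : K, a ^ p = u := by
  constructor
  · intro h
    by_contra hne
    have hu : u ∉ (frobenius K p).fieldRange := by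
      rintro ⟨a, ha⟩
      exact hne ⟨a, ha⟩
    obtain ⟨D, hD, -⟩ := exists_der (p := p) (frobenius K p).fieldRange (fun a => ⟨a, rfl⟩) hu
    rw [h D] at hD
    exact zero_ne_one hD
  · rintro ⟨a, rfl⟩
    exact Const.pow_char p a

/-- a subfield containing the constants and `x` contains everything depending on `x`. -/
lemma Dep.mem (p : ℕ) [Fact p.Prime] [CharP K p] {x u : K} (h : Dep x u) (S : Subfield K) (hS : ∀ a, Const a → a ∈ S) (hx : x ∈ S) :
    u ∈ S := by
  by_contra hu
  obtain ⟨D, hD, hD'⟩ := exists_der (p := p) S (fun a => hS _ (Const.pow_char p a)) hu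
  rw [h D (hD' x hx)] at hD
  exact zero_ne_one hD

/-- A derivation is linear over the constants. -/
def cstLin (E : Der K) : K →ₗ[Cst K] K where
  toFun := E
  map_add' := map_add E
  map_smul' := by
    intro c a
    change E ((c : K) * a) = (c : K) * E a
    rw [D_mul, mem_Cst.1 c.2 E]; simp

variable (p) in
/-- eigenvalue lemma -/
lemma exists_nat_eigen {x w c : K} {E : Der K} (hE : E x = x) (hw : Dep x w) (hw0 : w ≠ 0)
    (hc : Const c) (h : E w = c * w) : ∃ n : ℕ, n < p ∧ (n : K) = c := by
  by_contra hne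
  have hne' : ∀ n : ℕ, (n : K) ≠ c := by
    intro n hn
    apply hne
    refine ⟨n % p, Nat.mod_lt _ hp.out.pos, ?_⟩
    rw [← hn]; exact (CharP.cast_eq_mod K p n).symm
  let f : Module.End (Cst K) K := cstLin E
  let c' : Cst K := ⟨c, mem_Cst.2 hc⟩
  have hind := Module.End.eigenspaces_iSupIndep f c'
  have h1 : w ∈ f.eigenspace c' := by
    rw [Module.End.mem_eigenspace_iff]; exact h
  have hint : IsIntegral (Cst K) x :=
    isIntegral_of_pow_mem (p := p) _ (fun a => mem_Cst.2 (Const.pow_char p a)) x
  have h2 : w ∈ IntermediateField.adjoin (Cst K) {x} := by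
    apply Dep.mem p hw (IntermediateField.adjoin (Cst K) {x}).toSubfield
    · intro a ha
      exact (IntermediateField.adjoin (Cst K) {x}).algebraMap_mem ⟨a, mem_Cst.2 ha⟩
    · exact IntermediateField.mem_adjoin_simple_self _ x
  rw [← IntermediateField.mem_toSubalgebra,
      IntermediateField.adjoin_simple_toSubalgebra_of_isAlgebraic hint.isAlgebraic,
      Algebra.adjoin_singleton_eq_range_aeval] at h2
  obtain ⟨g, hg⟩ := h2
  have h3 : w ∈ ⨆ j, ⨆ (_ : j ≠ c'), f.eigenspace j := by
    rw [← hg]
    change aeval x g ∈ _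
    rw [aeval_eq_sum_range]
    apply Submodule.sum_mem
    intro n _
    apply Submodule.smul_mem
    have hn : ((n : Cst K)) ≠ c' := by
      intro h; apply hne' n
      simpa using congrArg Subtype.val h
    apply Submodule.mem_iSup_of_mem (n : Cst K)
    apply Submodule.mem_iSup_of_mem hn
    rw [Module.End.mem_eigenspace_iff]
    change E (x ^ n) = ((n : Cst K) : K) * x ^ n
    rw [D_pow, hE]
    rcases n with _ | n
    · simp
    · simp [pow_succ, mul_assoc]
  exact hw0 ((Submodule.disjoint_def.1 hind) w h1 h3)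

end CharP

end Crest.Agent.R9
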