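import Crest.Agent.R9.Hom

set_option autoImplicit false

namespace Crest.Agent.R9

lemma exists_extend_der {R S T : Type*} [CommRing R] [CommRing S] [CommRing T] [Algebra R S]
    [Algebra R T] [Algebra S T] [IsScalarTower R S T] [Algebra.FormallyEtale S T]
    (d : Derivation R S T) : ∃ D : Derivation R T T, ∀ s, D (algebraMap S T s) = d s := by
  let φ := (KaehlerDifferential.isBaseChange_of_formallyEtale R S T).lift d.liftKaehlerDifferential
  refine ⟨φ.compDer (KaehlerDifferential.D R T), fun s => ?_⟩
  change φ (KaehlerDifferential.D R T (algebraMap S T s)) = _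
  rw [← KaehlerDifferential.map_D R R S T s, IsBaseChange.lift_eq]
  simp

open scoped IntermediateField.algebraAdjoinAdjoin in
lemma exists_dual_der {k K ι : Type*} [Field k] [Field K] [Algebra k K] [DecidableEq ι] {v : ι → K}
    (hv : AlgebraicIndependent k v)
    [Algebra.IsSeparable (IntermediateField.adjoin k (Set.range v)) K] (i : ι) :
    ∃ D : Derivation k K K, ∀ j, D (v j) = if j = i then 1 else 0 := by
  have h1 : Algebra.FormallyEtale (Algebra.adjoin k (Set.range v))
      (IntermediateField.adjoin k (Set.range v)) := .of_isLocalization (nonZeroDivisors _)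
  have h2 : Algebra.FormallyEtale (IntermediateField.adjoin k (Set.range v)) K :=
    Algebra.FormallyEtale.of_isSeparable _ K
  have h3 : Algebra.FormallyEtale (Algebra.adjoin k (Set.range v)) K :=
    .comp _ (IntermediateField.adjoin k (Set.range v)) _
  let e := hv.aevalEquiv
  have hd : ∀ x, e x = 0 → e (MvPolynomial.pderiv i x) = 0 := by
    intro x hx
    rw [(map_eq_zero_iff e e.injective).1 hx]; simp
  let d := Derivation.liftOfSurjective e.surjective hd
  obtain ⟨D, hD⟩ := exists_extend_der
    ((Algebra.linearMap (Algebra.adjoin k (Set.range v)) K).compDer d)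
  refine ⟨D, fun j => ?_⟩
  have h4 := hD (e (MvPolynomial.X j))
  have h5 : algebraMap (Algebra.adjoin k (Set.range v)) K (e (MvPolynomial.X j)) = v j := by
    simp [e]
  rw [h5] at h4
  rw [h4]
  change algebraMap (Algebra.adjoin k (Set.range v)) K (d (e (MvPolynomial.X j))) = _
  rw [Derivation.liftOfSurjective_apply, MvPolynomial.pderiv_X]
  by_cases h : j = i
  · subst h; simp
  · simp [h]

lemma der_eq_zero_of_isSeparable {K : Type*} [Field K] (M : Subfield K) (D : Der K)
    (hM : ∀ m ∈ M, D m = 0) {x : K} (hx : IsSeparable M x) : D x = 0 := by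
  let D' : Derivation M K K := Derivation.mk'
    { toFun := D
      map_add' := map_add D
      map_smul' := by
        intro c a
        change D ((c : K) * a) = (c : K) * D a
        rw [D_mul, hM _ c.2]; simp }
    (fun a b => D.leibniz a b)
  have h1 := D'.map_aeval (minpoly M x) x
  rw [minpoly.aeval, map_zero] at h1
  have h2 := hx.aeval_derivative_ne_zero (minpoly.aeval M x)
  rw [smul_eq_mul] at h1
  exact (mul_eq_zero.1 h1.symm).resolve_left h2

theorem trdeg_eq_finrank (p : ℕ) [Fact p.Prime] (k K : Type*) [Field k] [Field K] [Algebra k K]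
    [CharP K p] [PerfectField k] [Algebra.EssFiniteType k K] :
    Algebra.trdeg k K = (Module.finrank K (Der K) : ℕ) ∧
      (2 ≤ Algebra.trdeg k K → ∃ x y : K, ¬ Const x ∧ ¬ Dep x y) := by
  classical
  obtain ⟨s, hs, H⟩ := exists_isTranscendenceBasis_and_isSeparable_of_perfectField k K
  have : Algebra.IsSeparable (IntermediateField.adjoin k (Set.range ((↑) : s → K))) K := by
    convert! H <;> simp
  choose D hD using exists_dual_der hs.1
  have hchar : CharP k p := (algebraMap k K).charP (algebraMap k K).injective p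
  have hk : ∀ a : k, Const (algebraMap k K a) := by
    intro a
    obtain ⟨b, rfl⟩ := surjective_frobenius k p a
    rw [frobenius_def, map_pow]; exact Const.pow_char p _
  let ev : Der K →ₗ[K] (s → K) :=
    { toFun := fun E j => E j
      map_add' := fun _ _ => rfl
      map_smul' := fun _ _ => rfl }
  have hinj : Function.Injective ev := by
    rw [injective_iff_map_eq_zero]
    intro E hE
    ext x
    apply der_eq_zero_of_isSeparable (IntermediateField.adjoin k (s : Set K)).toSubfield E
    · intro m hm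
      have : (IntermediateField.adjoin k (s : Set K)).toSubfield ≤ kerField E := by
        rw [IntermediateField.adjoin_toSubfield, Subfield.closure_le]
        rintro y (⟨a, rfl⟩ | hy)
        · exact hk a E
        · exact congrFun hE ⟨y, hy⟩
      exact this hm
    · exact H.isSeparable' x
  have hsurj : Function.Surjective ev := by
    intro f
    refine ⟨∑ i, f i • (D i).restrictScalars ℤ, ?_⟩
    rw [map_sum]
    ext j
    simp only [map_smul, Finset.sum_apply, Pi.smul_apply, smul_eq_mul]
    change ∑ i, f i * D i j = _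
    simp [hD]
  have h1 : Module.finrank K (Der K) = s.card := by
    rw [(LinearEquiv.ofBijective ev ⟨hinj, hsurj⟩).finrank_eq]; simp
  have h2 : Algebra.trdeg k K = s.card := by
    rw [← hs.cardinalMk_eq_trdeg]; simp
  refine ⟨by rw [h1, h2], fun h => ?_⟩
  rw [h2] at h
  have h3 : 1 < s.card := by exact_mod_cast h
  obtain ⟨x, hx, y, hy, hxy⟩ := Finset.one_lt_card.1 h3
  refine ⟨x, y, fun hc => ?_, fun hc => ?_⟩
  · have := hc ((D ⟨x, hx⟩).restrictScalars ℤ)
    have h4 := hD ⟨x, hx⟩ ⟨x, hx⟩
    rw [if_pos rfl] at h4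
    exact zero_ne_one (this.symm.trans h4)
  · have h4 := hD ⟨y, hy⟩ ⟨y, hy⟩
    have h5 := hD ⟨y, hy⟩ ⟨x, hx⟩
    rw [if_pos rfl] at h4
    rw [if_neg (fun h => hxy (congrArg Subtype.val h))] at h5
    exact zero_ne_one ((hc ((D ⟨y, hy⟩).restrictScalars ℤ) h5).symm.trans h4)

lemma essFiniteType_of_closure {K : Type*} [Field K] (k : Subfield K)
    (hK : ∃ s : Finset K, Subfield.closure ((k : Set K) ∪ (s : Set K)) = ⊤) :
    Algebra.EssFiniteType k K := by
  obtain ⟨s, hs⟩ := hK
  rw [← IntermediateField.fg_top_iff]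
  refine ⟨s, ?_⟩
  apply IntermediateField.toSubfield_injective
  rw [IntermediateField.adjoin_toSubfield, IntermediateField.top_toSubfield, ← hs]
  congr 2
  ext x
  exact ⟨fun ⟨a, ha⟩ => ha ▸ a.2, fun hx => ⟨⟨x, hx⟩, rfl⟩⟩

/-- an algebraically closed ground field is the set of elements with all `p`-power roots -/
theorem mem_iff_roots (p : ℕ) [hp : Fact p.Prime] {K : Type*} [Field K] [CharP K p]
    (k : Subfield K) [IsAlgClosed k]
    (hK : ∃ s : Finset K, Subfield.closure ((k : Set K) ∪ (s : Set K)) = ⊤) (u : K) :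
    u ∈ k ↔ ∀ n : ℕ, ∃ a : K, a ^ p ^ n = u := by
  have hfwd : ∀ u ∈ k, ∀ n : ℕ, ∃ a : K, a ^ p ^ n = u := by
    intro u hu n
    obtain ⟨a, ha⟩ := IsAlgClosed.exists_pow_nat_eq (⟨u, hu⟩ : k) (pow_pos hp.out.pos n)
    exact ⟨a, by simpa using congrArg Subtype.val ha⟩
  refine ⟨hfwd u, fun hu => ?_⟩
  have := essFiniteType_of_closure k hK
  let c : Subfield K := ⨅ n : ℕ, (iterateFrobenius K p n).fieldRange
  have hc : ∀ w, w ∈ c ↔ ∀ n : ℕ, ∃ a : K, a ^ p ^ n = w := by
    intro w; simp [c, Subfield.mem_iInf, iterateFrobenius_def]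
  let k₀ : IntermediateField k K := c.toIntermediateField fun x => (hc _).2 (hfwd x x.2)
  have hperf : PerfectField k₀ := by
    have : CharP k₀ p := (algebraMap k₀ K).charP (algebraMap k₀ K).injective p
    have : PerfectRing k₀ p := by
      apply PerfectRing.ofSurjective
      rintro ⟨w, hw⟩
      have hw' := (hc w).1 hw
      obtain ⟨a, ha⟩ := hw' 1
      rw [pow_one] at ha
      refine ⟨⟨a, (hc a).2 fun n => ?_⟩, Subtype.ext ha⟩
      obtain ⟨b, hb⟩ := hw' (n + 1)
      refine ⟨b, frobenius_inj K p ?_⟩
      rw [frobenius_def, frobenius_def, ← pow_mul, ← pow_succ, hb, ha]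
    exact PerfectRing.toPerfectField k₀ p
  have : Algebra.EssFiniteType k₀ K := Algebra.EssFiniteType.of_comp k k₀ K
  have h1 := (trdeg_eq_finrank p k K).1
  have h2 := (trdeg_eq_finrank p k₀ K).1
  have h3 := trdeg_add_eq k k₀ (A := K)
  rw [h1, h2] at h3
  have h4 : Algebra.trdeg k k₀ = 0 := by
    apply (Cardinal.add_nat_inj (Module.finrank K (Der K))).1
    rw [h3, zero_add]
  have h5 : Algebra.IsAlgebraic k k₀ := trdeg_eq_zero_iff.1 h4
  obtain ⟨a, ha⟩ := (IsAlgClosed.algebraMap_bijective_of_isIntegral (k := k) (K := k₀)).2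
    ⟨u, (hc u).2 hu⟩
  have : (a : K) = u := congrArg Subtype.val ha
  rw [← this]; exact a.2

end Crest.Agent.R9
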