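import Crest.Agent.R9.Corr

set_option autoImplicit false

namespace Crest.Agent.R9

section
variable {K : Type*} [Field K]

/-- `1, x, y` are linearly independent over the constants -/
def Ind3 (x y : K) : Prop :=
  ∀ a b c : K, Const a → Const b → Const c → a + b * x + c * y = 0 → a = 0 ∧ b = 0 ∧ c = 0

/-- `z` is outside the span of `1, u, v` over the constants -/
def Out (u v z : K) : Prop :=
  ∀ a b c : K, Const a → Const b → Const c → z ≠ a + b * u + c * v

lemma ind3_of {x y : K} (hx : ¬ Const x) (h : ∀ a b : K, Const a → Const b → y ≠ a + b * x) :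
    Ind3 x y := by
  intro a b c ha hb hc e
  have hc0 : c = 0 := by
    by_contra hc0
    apply h (-a / c) (-b / c) (ha.neg.div hc) (hb.neg.div hc)
    field_simp; linear_combination e
  have hb0 : b = 0 := by
    by_contra hb0
    apply hx
    have : x = -a / b := by field_simp; linear_combination e - y * hc0
    rw [this]; exact ha.neg.div hb
  refine ⟨?_, hb0, hc0⟩
  rw [hb0, hc0] at e; simpa using e

lemma Ind3.left {x y : K} (h : Ind3 x y) : ¬ Const x := by
  intro hx
  have := (h (-x) 1 0 hx.neg Const.one Const.zero (by ring)).2.1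
  exact one_ne_zero this

lemma Ind3.right {x y : K} (h : Ind3 x y) : ¬ Const y := by
  intro hy
  have := (h (-y) 0 1 hy.neg Const.zero Const.one (by ring)).2.2
  exact one_ne_zero this

/-- a nontrivial combination is non-zero, and quotients are not constant -/
lemma Ind3.not_const_div {x y : K} (h : Ind3 x y) {a b c a' b' c' : K} (ha : Const a)
    (hb : Const b) (hc : Const c) (ha' : Const a') (hb' : Const b') (hc' : Const c')
    (hdet : a * b' ≠ b * a' ∨ a * c' ≠ c * a' ∨ b * c' ≠ c * b') :
    ¬ Const ((a + b * x + c * y) / (a' + b' * x + c' * y)) ∨ a' + b' * x + c' * y = 0 := by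
  by_cases h0 : a' + b' * x + c' * y = 0
  · exact Or.inr h0
  left
  intro he
  set e := (a + b * x + c * y) / (a' + b' * x + c' * y) with hedef
  have h1 : (a - e * a') + (b - e * b') * x + (c - e * c') * y = 0 := by
    have : e * (a' + b' * x + c' * y) = a + b * x + c * y := by rw [hedef, div_mul_cancel₀ _ h0]
    linear_combination -this
  obtain ⟨e1, e2, e3⟩ := h _ _ _ (ha.sub (he.mul ha')) (hb.sub (he.mul hb')) (hc.sub (he.mul hc')) h1
  rcases hdet with h | h | h <;> apply h
  · linear_combination b' * e1 - a' * e2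
  · linear_combination c' * e1 - a' * e3
  · linear_combination c' * e2 - b' * e3

lemma exists_out {x y : K} (hx : ¬ Const x) (hy : ¬ Dep x y) (u v : K) : ∃ z, Out u v z := by
  classical
  by_contra hcon
  simp only [Out, not_exists, not_forall, not_not] at hcon
  obtain ⟨E₁, E₂, h11, h12, h21, h22⟩ := exists_euler2 hx hy
  have hx0 := ne_zero_of_not_const hx
  have hy0 := ne_zero_of_not_const (not_const_of_not_dep hy)
  have hli : LinearIndependent (Cst K) ![(1 : K), x, y, x * y] := by
    rw [Fintype.linearIndependent_iff]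
    intro g hg
    simp only [Fin.sum_univ_four, Matrix.cons_val_zero, Matrix.cons_val_one, Matrix.cons_val] at hg
    change (g 0 : K) * 1 + (g 1 : K) * x + (g 2 : K) * y + (g 3 : K) * (x * y) = 0 at hg
    have c0 := mem_Cst.1 (g 0).2
    have c1 := mem_Cst.1 (g 1).2
    have c2 := mem_Cst.1 (g 2).2
    have c3 := mem_Cst.1 (g 3).2
    have h1 := congrArg E₁ hg
    simp only [map_add, D_mul, c0 E₁, c1 E₁, c2 E₁, c3 E₁, h11, h12, map_zero,
      Derivation.map_one_eq_zero, mul_zero, add_zero, zero_add] at h1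
    have h2 := congrArg E₂ h1
    simp only [map_add, D_mul, c1 E₂, c3 E₂, h21, h22, map_zero,
      mul_zero, add_zero, zero_add] at h2
    have h3 := congrArg E₂ hg
    simp only [map_add, D_mul, c0 E₂, c1 E₂, c2 E₂, c3 E₂, h21, h22, map_zero,
      Derivation.map_one_eq_zero, mul_zero, add_zero, zero_add] at h3
    have g3 : (g 3 : K) = 0 := (mul_eq_zero.1 h2).resolve_right (mul_ne_zero hx0 hy0)
    have g1 : (g 1 : K) = 0 := by
      rw [g3, zero_mul, add_zero] at h1
      exact (mul_eq_zero.1 h1).resolve_right hx0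
    have g2 : (g 2 : K) = 0 := by
      rw [g3, zero_mul, add_zero] at h3
      exact (mul_eq_zero.1 h3).resolve_right hy0
    have g0 : (g 0 : K) = 0 := by
      rw [g1, g2, g3] at hg; simpa using hg
    intro i
    fin_cases i
    · exact Subtype.ext g0
    · exact Subtype.ext g1
    · exact Subtype.ext g2
    · exact Subtype.ext g3
  have hspan : ⊤ ≤ Submodule.span (Cst K) (Set.range ![(1 : K), u, v]) := by
    intro z _
    obtain ⟨a, b, c, ha, hb, hc, e⟩ := hcon z
    rw [Submodule.mem_span_range_iff_exists_fun]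
    refine ⟨![⟨a, mem_Cst.2 ha⟩, ⟨b, mem_Cst.2 hb⟩, ⟨c, mem_Cst.2 hc⟩], ?_⟩
    simp only [Fin.sum_univ_three, Matrix.cons_val_zero, Matrix.cons_val_one, Matrix.cons_val]
    change a * 1 + b * u + c * v = z
    rw [e]; ring
  have hfin : Module.Finite (Cst K) K :=
    ⟨Submodule.fg_def.2 ⟨_, Set.finite_range _, top_le_iff.1 hspan⟩⟩
  have h1 := hli.fintype_card_le_finrank
  have h2 := finrank_le_of_span_eq_top (top_le_iff.1 hspan)
  simp only [Fintype.card_fin] at h1 h2
  omega

end

namespace Corr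
variable {K L : Type*} [Field K] [Field L] {C : Corr K L}

lemma LinePres.add (hL : C.LinePres) {u v : K} {U V W : L} (hu : C.R u U) (hv : C.R v V)
    (hw : C.R (u + v) W) (h : ¬ Const (u / v)) :
    ∃ a b : L, Const a ∧ Const b ∧ a ≠ 0 ∧ b ≠ 0 ∧ W = a * U + b * V := by
  have hv0 := C.ne_left hv
  have hV0 := C.ne_right hv
  have h1 : C.R (u / v + 1) (W / V) := by
    have := div hw hv
    rwa [add_div, div_self hv0] at this
  obtain ⟨a, b, ha, hb, ha0, hb0, e⟩ := hL _ _ _ h (div hu hv) h1
  refine ⟨a, b, ha, hb, ha0, hb0, ?_⟩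
  field_simp at e
  linear_combination e

lemma ind3 (hL' : C.symm.LinePres) {x y : K} {X Y : L} (hx : C.R x X) (hy : C.R y Y)
    (h : Ind3 x y) : Ind3 X Y := by
  have hX : ¬ Const X := fun hc => h.left (const_left hx hc)
  apply ind3_of hX
  intro a b ha hb e
  have hX0 := C.ne_right hx
  have hx0 := C.ne_left hx
  by_cases hb0 : b = 0
  · rw [hb0, zero_mul, add_zero] at e
    exact h.right (const_left hy (e ▸ ha))
  have h1 : C.R x (b * X) := C.smul_right hx hb hb0
  by_cases ha0 : a = 0
  · rw [ha0, zero_add] at e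
    rw [← e] at h1
    have h2 := C.uniq_left h1 hy
    have := (h 0 (y / x) (-1) Const.zero h2 Const.one.neg (by field_simp; ring)).2.2
    exact one_ne_zero (neg_eq_zero.1 this)
  have h2 : C.R 1 a := const_const Const.one one_ne_zero ha ha0
  obtain ⟨a', b', ha', hb', -, -, e'⟩ := LinePres.add (C := C.symm) hL' (u := b * X) (v := a)
    (U := x) (V := 1) (W := y) h1 h2 (by rw [add_comm, ← e]; exact hy) (by
      intro hc
      apply hX
      have := (hc.mul ha).div hb
      have e2 : b * X / a * a / b = X := by field_simp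
      rwa [e2] at this)
  have := (h b' a' (-1) hb' ha' Const.one.neg (by rw [e']; ring)).2.2
  exact one_ne_zero (neg_eq_zero.1 this)

variable (C) in
/-- `X` is the normalised image of `x` -/
def Good (x : K) (X : L) : Prop := C.R x X ∧ C.R (x + 1) (X + 1)

lemma exists_good (hL : C.LinePres) {x : K} (hx : ¬ Const x) : ∃ X, C.Good x X := by
  obtain ⟨X, hX⟩ := C.ex_right (ne_zero_of_not_const hx)
  obtain ⟨P, hP⟩ := C.ex_right (add_one_ne_zero hx)
  obtain ⟨a, b, ha, hb, ha0, hb0, e⟩ := hL x X P hx hX hP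
  refine ⟨a / b * X, C.smul_right hX (ha.div hb) (div_ne_zero ha0 hb0), ?_⟩
  have := C.smul_right hP hb.inv (inv_ne_zero hb0)
  have e1 : b⁻¹ * P = a / b * X + 1 := by rw [e]; field_simp
  rwa [e1] at this

lemma Good.unique {x : K} (hx : ¬ Const x) {X X' : L} (h : C.Good x X) (h' : C.Good x X') :
    X' = X := by
  have hX : ¬ Const X := fun hc => hx (const_left h.1 hc)
  have h1 := C.uniq_right h.1 h'.1
  have h2 := C.uniq_right h.2 h'.2
  have hX0 := C.ne_right h.1
  have hX1 := C.ne_right h.2
  set e := X' / X with he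
  set e' := (X' + 1) / (X + 1) with he'
  have e1 : X' = e * X := by rw [he]; field_simp
  have e2 : X' + 1 = e' * (X + 1) := by rw [he']; field_simp
  have e3 : e = e' := by
    by_contra hne
    apply hX
    have hne' : e - e' ≠ 0 := sub_ne_zero.2 hne
    have : X = (e' - 1) / (e - e') := by field_simp; linear_combination e2 - e1
    rw [this]; exact (h2.sub Const.one).div (h1.sub h2)
  have e4 : e' = 1 := by rw [e3] at e1; linear_combination e1 - e2
  rw [e1, e3, e4, one_mul]

lemma Good.add (hL : C.LinePres) (hL' : C.symm.LinePres) {x y : K} {X Y : L} (h : Ind3 x y)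
    (hx : C.Good x X) (hy : C.Good y Y) : C.Good (x + y) (X + Y) := by
  have hI := ind3 hL' hx.1 hy.1 h
  have c0 : Const (0 : K) := Const.zero
  have c1 : Const (1 : K) := Const.one
  have hx0 := C.ne_left hx.1
  have hy0 := C.ne_left hy.1
  have hy1 := C.ne_left hy.2
  have n1 : x + y + 1 ≠ 0 := fun e => one_ne_zero (h 1 1 1 c1 c1 c1 (by linear_combination e)).1
  have n2 : x + y ≠ 0 := fun e => one_ne_zero (h 0 1 1 c0 c1 c1 (by linear_combination e)).2.1
  obtain ⟨W, hW⟩ := C.ex_right n1
  obtain ⟨V, hV⟩ := C.ex_right n2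
  obtain ⟨a, b, ha, hb, ha0, -, e1⟩ := hL.add hx.2 hy.1 (W := W)
    (by rw [add_right_comm]; exact hW) (by
      have := (h.not_const_div c1 c1 c0 c0 c0 c1 (by simp)).resolve_right (by simpa using hy0)
      simpa [add_comm] using this)
  obtain ⟨c, d, hc, hd, -, -, e2⟩ := hL.add hx.1 hy.2 (W := W)
    (by rw [← add_assoc]; exact hW) (by
      have := (h.not_const_div c0 c1 c0 c1 c0 c1 (by simp)).resolve_right
        (by simpa [add_comm] using hy1)
      simpa [add_comm] using this)
  obtain ⟨f1, f2, f3⟩ := hI (a - d) (a - c) (b - d) (ha.sub hd) (ha.sub hc) (hb.sub hd)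
    (by linear_combination e2 - e1)
  have hW' : C.R (x + y + 1) (X + Y + 1) := by
    have := C.smul_right hW ha.inv (inv_ne_zero ha0)
    have e : a⁻¹ * W = X + Y + 1 := by
      rw [e1]; field_simp; linear_combination Y * f3 - Y * f1
    rwa [e] at this
  refine ⟨?_, hW'⟩
  obtain ⟨a, b, ha, hb, ha0, -, e1⟩ := hL.add hx.1 hy.1 hV (by
      have := (h.not_const_div c0 c1 c0 c0 c0 c1 (by simp)).resolve_right (by simpa using hy0)
      simpa using this)
  obtain ⟨c, d, hc, hd, -, -, e2⟩ := hL.add hW' (v := -1) (V := 1) (W := V)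
    (const_const c1.neg (neg_ne_zero.2 one_ne_zero) Const.one one_ne_zero)
    (by rw [add_neg_cancel_right]; exact hV) (by
      have := (h.not_const_div c1 c1 c1 c1.neg c0 c0 (by simp)).resolve_right (by simp)
      intro hc; apply this
      convert hc using 2 <;> ring)
  obtain ⟨f1, f2, f3⟩ := hI (c + d) (c - a) (c - b) (hc.add hd) (hc.sub ha) (hc.sub hb)
    (by linear_combination e1 - e2)
  have := C.smul_right hV ha.inv (inv_ne_zero ha0)
  have e : a⁻¹ * V = X + Y := by
    rw [e1]; field_simp; linear_combination Y * f2 - Y * f3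
  rwa [e] at this

lemma Good.mul (hL : C.LinePres) (hL' : C.symm.LinePres) {x y : K} {X Y : L} (h : Ind3 x (x * y))
    (hx : C.Good x X) (hx' : C.Good (-x) (-X)) (hy : C.Good y Y) : C.Good (x * y) (X * Y) := by
  have hxy := C.mul hx.1 hy.1
  have hI := ind3 hL' hx.1 hxy h
  have c0 : Const (0 : K) := Const.zero
  have c1 : Const (1 : K) := Const.one
  refine ⟨hxy, ?_⟩
  obtain ⟨W, hW⟩ := C.ex_right (add_one_ne_zero h.right)
  obtain ⟨a, b, ha, hb, ha0, -, e1⟩ := hL _ _ _ h.right hxy hW
  obtain ⟨c, d, hc, hd, -, -, e2⟩ := hL.add (C.mul hx.1 hy.2) hx'.2 (W := W)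
    (by convert hW using 1; ring) (by
      have := (h.not_const_div c0 c1 c1 c1 c1.neg c0 (by simp)).resolve_right
        (by have := C.ne_left hx'.2; intro e; apply this; linear_combination e)
      intro hc; apply this
      convert hc using 2 <;> ring)
  obtain ⟨f1, f2, f3⟩ := hI (b - d) (d - c) (a - c) (hb.sub hd) (hd.sub hc) (ha.sub hc)
    (by linear_combination e2 - e1)
  have := C.smul_right hW ha.inv (inv_ne_zero ha0)
  have e : a⁻¹ * W = X * Y + 1 := by
    rw [e1]; field_simp; linear_combination f1 + f2 - f3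
  rwa [e] at this

theorem exists_hom (hL : C.LinePres) (hL' : C.symm.LinePres) {x₀ y₀ : K} (hx₀ : ¬ Const x₀)
    (hy₀ : ¬ Dep x₀ y₀) : ∃ β : K →+* L, ∀ u, u ≠ 0 → C.R u (β u) := by
  classical
  have hout := exists_out hx₀ hy₀
  have c0 : Const (0 : K) := Const.zero
  have c1 : Const (1 : K) := Const.one
  choose! α hα using fun (x : K) (hx : ¬ Const x) => exists_good (C := C) hL hx
  have hadd : ∀ x y, Ind3 x y → α (x + y) = α x + α y := by
    intro x y h
    have hxy : ¬ Const (x + y) := fun hc =>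
      one_ne_zero (h (-(x + y)) 1 1 hc.neg c1 c1 (by ring)).2.1
    exact Good.unique hxy ((hα x h.left).add hL hL' h (hα y h.right)) (hα _ hxy)
  have hshift : ∀ a z z', Const a → Ind3 z z' → α (z + a) - α z = α (z' + a) - α z' := by
    intro a z z' ha h
    have h1 : Ind3 (z + a) z' := by
      intro p q r hp hq hr e
      obtain ⟨f1, f2, f3⟩ := h (p + q * a) q r (hp.add (hq.mul ha)) hq hr (by linear_combination e)
      exact ⟨by linear_combination f1 - a * f2, f2, f3⟩
    have h2 : Ind3 z (z' + a) := by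
      intro p q r hp hq hr e
      obtain ⟨f1, f2, f3⟩ := h (p + r * a) q r (hp.add (hr.mul ha)) hq hr (by linear_combination e)
      exact ⟨by linear_combination f1 - a * f3, f2, f3⟩
    have e1 := hadd _ _ h1
    have e2 := hadd _ _ h2
    rw [add_right_comm, add_assoc] at e1
    linear_combination e2 - e1
  let β : K → L := fun u => if Const u then α (x₀ + u) - α x₀ else α u
  have hβ : ∀ u, ¬ Const u → β u = α u := fun u hu => if_neg hu
  have hP : ∀ u z, (∀ a b : K, Const a → Const b → z ≠ a + b * u) → β (z + u) = β z + β u := by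
    intro u z hz
    have hzc : ¬ Const z := fun hc => hz z 0 hc c0 (by ring)
    have hzu : ¬ Const (z + u) := fun hc => hz (z + u) (-1) hc c1.neg (by ring)
    rw [hβ _ hzc, hβ _ hzu]
    by_cases hu : Const u
    · have : β u = α (x₀ + u) - α x₀ := if_pos hu
      rw [this]
      obtain ⟨w, hw⟩ := hout x₀ z
      have i1 : Ind3 x₀ w := ind3_of hx₀ fun a b ha hb e => hw a b 0 ha hb c0 (by rw [e]; ring)
      have i2 : Ind3 z w := ind3_of hzc fun a b ha hb e => hw a 0 b ha c0 hb (by rw [e]; ring)
      linear_combination hshift u z w hu i2 - hshift u x₀ w hu i1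
    · rw [hβ _ hu, add_comm, hadd u z (ind3_of hu hz), add_comm]
  have hβadd : ∀ u v, β (u + v) = β u + β v := by
    intro u v
    obtain ⟨z, hz⟩ := hout u v
    have e1 := hP (u + v) z fun a b ha hb e => hz a b b ha hb hb (by rw [e]; ring)
    have e2 := hP v z fun a b ha hb e => hz a 0 b ha c0 hb (by rw [e]; ring)
    have e3 := hP u (z + v) fun a b ha hb e =>
      hz a b (-1) ha hb c1.neg (by linear_combination e)
    rw [add_comm u v, ← add_assoc] at e1
    rw [add_comm u v]
    linear_combination e3 + e2 - e1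
  have hβ0 : β 0 = 0 := by
    have := hβadd 0 0
    rw [add_zero] at this
    linear_combination -this
  have hβneg : ∀ u, β (-u) = -β u := by
    intro u
    have := hβadd u (-u)
    rw [add_neg_cancel, hβ0] at this
    linear_combination -this
  have hm1 : ∀ x y, ¬ Const x → (∀ a b : K, Const a → Const b → y ≠ a + b * x⁻¹) →
      β (x * y) = β x * β y := by
    intro x y hx hy
    have hx0 := ne_zero_of_not_const hx
    have hyc : ¬ Const y := fun hc => hy y 0 hc c0 (by ring)
    have hI : Ind3 x (x * y) := ind3_of hx fun a b ha hb e =>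
      hy b a hb ha (by field_simp; linear_combination e)
    have hnx : ¬ Const (-x) := fun hc => hx (by simpa using hc.neg)
    have h1 : C.Good (-x) (-α x) := by
      rw [← hβ x hx, ← hβneg, hβ _ hnx]; exact hα _ hnx
    rw [hβ _ hx, hβ _ hyc, hβ _ hI.right]
    exact Good.unique hI.right ((hα x hx).mul hL hL' hI h1 (hα y hyc)) (hα _ hI.right)
  have hm2 : ∀ x v, ¬ Const x → β (x * v) = β x * β v := by
    intro x v hx
    obtain ⟨z, hz⟩ := hout x⁻¹ v
    have e1 := hm1 x z hx fun a b ha hb e => hz a b 0 ha hb c0 (by rw [e]; ring)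
    have e2 := hm1 x (z + v) hx fun a b ha hb e =>
      hz a b (-1) ha hb c1.neg (by linear_combination e)
    rw [mul_add, hβadd, hβadd] at e2
    linear_combination e2 - e1
  have hβmul : ∀ u v, β (u * v) = β u * β v := by
    intro u v
    by_cases hu : Const u
    · have h1 : ¬ Const (x₀ + u) := fun hc => hx₀ (by simpa using hc.sub hu)
      have e1 := hm2 _ v h1
      have e2 := hm2 _ v hx₀
      rw [add_mul, hβadd, hβadd] at e1
      linear_combination e1 - e2
    · exact hm2 u v hu
  have hx₀R : C.R x₀ (β x₀) := by rw [hβ _ hx₀]; exact (hα _ hx₀).1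
  have hβx₀ : β x₀ ≠ 0 := C.ne_right hx₀R
  have hβ1 : β 1 = 1 := by
    have := hβmul x₀ 1
    rw [mul_one] at this
    exact (mul_left_cancel₀ hβx₀ (by rw [← this, mul_one])).symm
  refine ⟨{ toFun := β, map_one' := hβ1, map_mul' := hβmul, map_zero' := hβ0,
            map_add' := hβadd }, ?_⟩
  intro u hu
  change C.R u (β u)
  by_cases hc : Const u
  · have h1 : ¬ Const (u * x₀) := fun h => hx₀ (by
      have := h.div hc
      rwa [mul_div_cancel_left₀ _ hu] at this)
    have h2 : C.R (u * x₀) (β u * β x₀) := by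
      rw [← hβmul, hβ _ h1]; exact (hα _ h1).1
    have h3 := div h2 hx₀R
    rwa [mul_div_cancel_right₀ _ (ne_zero_of_not_const hx₀), mul_div_cancel_right₀ _ hβx₀] at h3
  · rw [hβ _ hc]; exact (hα _ hc).1

end Corr

/-- Lemma U: an endomorphism inducing a power map on `Lˣ/constants` is the identity. -/
lemma eq_id_of_pow {L : Type*} [Field L] (p : ℕ) [Fact p.Prime] [CharP L p] (γ : L →+* L)
    {n : ℕ} (hn : n < p) (hn0 : (n : L) ≠ 0) (h : ∀ v, v ≠ 0 → Const (γ v / v ^ n))
    {x : L} (hx : ¬ Const x) (v : L) : γ v = v := by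
  have key : ∀ y : L, ¬ Const y → Curve n y (y + 1) := by
    intro y hy
    have hy0 := ne_zero_of_not_const hy
    have hy1 := add_one_ne_zero hy
    have h1 := h y hy0
    have h2 := h _ hy1
    have g1 : γ y ≠ 0 := (map_ne_zero γ).2 hy0
    have g2 : γ (y + 1) ≠ 0 := (map_ne_zero γ).2 hy1
    have p1 : y ^ n ≠ 0 := pow_ne_zero _ hy0
    have p2 : (y + 1) ^ n ≠ 0 := pow_ne_zero _ hy1
    refine ⟨-(γ y / y ^ n)⁻¹, (γ y / y ^ n) / (γ (y + 1) / (y + 1) ^ n), h1.inv.neg, h1.div h2,
      neg_ne_zero.2 (inv_ne_zero (div_ne_zero g1 p1)),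
      div_ne_zero (div_ne_zero g1 p1) (div_ne_zero g2 p2), ?_⟩
    rw [map_add, map_one] at g2 ⊢
    field_simp
    ring
  have h1 : n = 1 := CharP.natCast_injOn_Iio L p hn (Fact.out : p.Prime).one_lt
    (Curve.unique hx hn0 (by simp) (key x hx) (curve_one_add_one x))
  subst h1
  have key2 : ∀ y : L, ¬ Const y → γ y = y := by
    intro y hy
    have hy0 := ne_zero_of_not_const hy
    have hy1 := add_one_ne_zero hy
    have h1 := h y hy0
    have h2 := h _ hy1
    rw [pow_one] at h1 h2
    rw [map_add, map_one] at h2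
    set e := γ y / y with he
    set e' := (γ y + 1) / (y + 1) with he'
    have e1 : γ y = e * y := by rw [he]; field_simp
    have e2 : γ y + 1 = e' * (y + 1) := by rw [he']; field_simp
    have e3 : e = e' := by
      by_contra hne
      apply hy
      have hne' : e - e' ≠ 0 := sub_ne_zero.2 hne
      have : y = (e' - 1) / (e - e') := by field_simp; linear_combination e2 - e1
      rw [this]; exact (h2.sub Const.one).div (h1.sub h2)
    have e4 : e' = 1 := by rw [e3] at e1; linear_combination e1 - e2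
    rw [e1, e3, e4, one_mul]
  by_cases hv : Const v
  · have h1 : ¬ Const (x + v) := fun hc => hx (by simpa using hc.sub hv)
    have := key2 _ h1
    rw [map_add, key2 x hx] at this
    exact add_left_cancel this
  · exact key2 v hv

theorem exists_equiv {K L : Type*} [Field K] [Field L] (p : ℕ) [Fact p.Prime] [CharP K p]
    [CharP L p] (C : Corr K L) (h1 : C.Stein) (h2 : C.symm.Stein) {x₀ y₀ : K} (hx₀ : ¬ Const x₀)
    (hy₀ : ¬ Dep x₀ y₀) :
    ∃ (d : ℕ) (α : K ≃+* L), (d : K) ≠ 0 ∧ ∀ u, u ≠ 0 → C.R (u ^ d) (α u) := by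
  have d1 := h1.depPres p
  have d2 := h2.depPres p
  obtain ⟨d, hdp, hd0, hd⟩ := Corr.exists_global p d1 d2 hx₀ hy₀
  have hdK : (d : K) ≠ 0 := by
    rw [Ne, CharP.cast_eq_zero_iff K p, ← CharP.cast_eq_zero_iff L p]; exact hd0
  let C' := C.powCorr p d hdK
  have d1' : C'.DepPres := Corr.powCorr_depPres p hdK d1
  have d2' : C'.symm.DepPres := Corr.powCorr_symm_depPres p hdK d2
  have l1 : C'.LinePres := Corr.powCorr_linePres p hdK hd
  have l2 : C'.symm.LinePres := Corr.linePres_symm p d1' d2' l1 hx₀ hy₀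
  obtain ⟨β, hβ⟩ := Corr.exists_hom l1 l2 hx₀ hy₀
  have hx0 := ne_zero_of_not_const hx₀
  have hy0 := ne_zero_of_not_const (not_const_of_not_dep hy₀)
  have hX₀ : ¬ Const (β x₀) := fun h => hx₀ (Corr.const_left (hβ _ hx0) h)
  have hY₀ : ¬ Dep (β x₀) (β y₀) := fun h => hy₀ (d2' _ _ _ _ (hβ _ hx0) (hβ _ hy0) h)
  obtain ⟨β', hβ'⟩ := Corr.exists_hom (C := C'.symm) l2 l1 hX₀ hY₀
  have hid := eq_id_of_pow p (β.comp β') (n := 1) (Fact.out : p.Prime).one_lt (by simp)
    (fun v hv => by
      rw [pow_one]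
      exact C'.uniq_right (hβ' v hv) (hβ _ ((map_ne_zero β').2 hv))) hX₀
  refine ⟨d, RingEquiv.ofBijective β ⟨β.injective, fun v => ⟨β' v, hid v⟩⟩, hdK, hβ⟩

end Crest.Agent.R9
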