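import Crest.Agent.R9.FunField
import Crest.Prelude.Def_MilnorK

set_option autoImplicit false

open Crest.NumberTheoryR.MilnorK

namespace Crest.Agent.R9

section
variable {K : Type*} [Field K] (p : ℕ) [hp : Fact p.Prime] [CharP K p]

omit hp [CharP K p] in
lemma cls_mul (u v : Kˣ) : cls K p (u * v) = cls K p u + cls K p v := rfl

omit hp [CharP K p] in
lemma cls_pow (u : Kˣ) (n : ℕ) : cls K p (u ^ n) = n • cls K p u := by
  induction n with
  | zero => simp [cls]
  | succ n ih => rw [pow_succ, cls_mul, ih, succ_nsmul]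

omit hp [CharP K p] in
lemma cls_surj (a : KOne K p) : ∃ u : Kˣ, cls K p u = a := by
  obtain ⟨u, rfl⟩ := QuotientAddGroup.mk_surjective a
  exact ⟨Additive.toMul u, rfl⟩

lemma cls_eq_iff (u v : Kˣ) : cls K p u = cls K p v ↔ Const ((v : K) / u) := by
  rw [cls, cls, QuotientAddGroup.eq, const_iff p]
  constructor
  · rintro ⟨a, ha⟩
    refine ⟨(Additive.toMul a : Kˣ), ?_⟩
    have h1 : (Additive.toMul a) ^ p = u⁻¹ * v := congrArg Additive.toMul ha
    have h2 := congrArg Units.val h1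
    simp only [Units.val_pow_eq_pow_val, Units.val_mul, Units.val_inv_eq_inv_val] at h2
    rw [h2, div_eq_inv_mul]
  · rintro ⟨a, ha⟩
    have ha0 : a ≠ 0 := by
      rintro rfl
      rw [zero_pow hp.out.ne_zero] at ha
      exact div_ne_zero v.ne_zero u.ne_zero ha.symm
    refine ⟨Additive.ofMul (Units.mk0 a ha0), ?_⟩
    change Additive.ofMul ((Units.mk0 a ha0) ^ p) = Additive.ofMul (u⁻¹ * v)
    congr 1
    ext
    simp [ha, div_eq_inv_mul]

/-- logarithmic derivative on `KOne` -/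
noncomputable def dlog (D : Der K) : KOne K p →+ K :=
  QuotientAddGroup.lift (pMultiples K p)
    { toFun := fun u => D ((Additive.toMul u : Kˣ) : K) / ((Additive.toMul u : Kˣ) : K)
      map_zero' := by simp
      map_add' := by
        intro a b
        simp only [toMul_add, Units.val_mul, D_mul]
        have := (Additive.toMul a).ne_zero
        have := (Additive.toMul b).ne_zero
        field_simp
        ring }
    (by
      rintro _ ⟨a, rfl⟩
      change D (((Additive.toMul a ^ p : Kˣ)) : K) / _ = 0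
      rw [Units.val_pow_eq_pow_val, Const.pow_char p _ D, zero_div])

lemma dlog_cls (D : Der K) (u : Kˣ) : dlog p D (cls K p u) = D u / u := rfl

lemma par_of_mem_steinberg {u v : Kˣ}
    (h : TensorProduct.tmul (ZMod p) (cls K p u) (cls K p v) ∈ steinberg K p) (D₁ D₂ : Der K) :
    D₁ u * D₂ v = D₂ u * D₁ v := by
  letI : Algebra (ZMod p) K := ZMod.algebra K p
  let φ₁ : KOne K p →ₗ[ZMod p] K := (dlog p D₁).toZModLinearMap p
  let φ₂ : KOne K p →ₗ[ZMod p] K := (dlog p D₂).toZModLinearMap p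
  let B : TensorProduct (ZMod p) (KOne K p) (KOne K p) →ₗ[ZMod p] K :=
    (LinearMap.mul' (ZMod p) K).comp (TensorProduct.map φ₁ φ₂) -
      (LinearMap.mul' (ZMod p) K).comp (TensorProduct.map φ₂ φ₁)
  have hB : ∀ a b : Kˣ, B (TensorProduct.tmul (ZMod p) (cls K p a) (cls K p b)) =
      D₁ a / a * (D₂ b / b) - D₂ a / a * (D₁ b / b) := by
    intro a b
    simp only [B, LinearMap.sub_apply, LinearMap.comp_apply, TensorProduct.map_tmul,
      LinearMap.mul'_apply]
    rfl
  have hker : steinberg K p ≤ LinearMap.ker B := by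
    rw [steinberg, Submodule.span_le]
    rintro _ ⟨f, hf, hf1, rfl⟩
    rw [SetLike.mem_coe, LinearMap.mem_ker, hB]
    simp only [Units.val_mk0, map_sub, Derivation.map_one_eq_zero]
    ring
  have h1 := hker h
  rw [LinearMap.mem_ker, hB] at h1
  have hu := u.ne_zero
  have hv := v.ne_zero
  field_simp at h1
  linear_combination h1

end

variable {K L : Type*} [Field K] [Field L] {p : ℕ} [hp : Fact p.Prime] [CharP K p] [CharP L p]

/-- the correspondence attached to `Θ` -/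
def corrOf (Θ : KOne K p ≃ₗ[ZMod p] KOne L p) : Corr K L where
  R u v := ∃ (U : Kˣ) (V : Lˣ), (U : K) = u ∧ (V : L) = v ∧ Θ (cls K p U) = cls L p V
  ne_left := by rintro _ _ ⟨U, V, rfl, rfl, -⟩; exact U.ne_zero
  ne_right := by rintro _ _ ⟨U, V, rfl, rfl, -⟩; exact V.ne_zero
  ex_right := by
    intro u hu
    obtain ⟨V, hV⟩ := cls_surj p (Θ (cls K p (Units.mk0 u hu)))
    exact ⟨V, _, V, rfl, rfl, hV.symm⟩
  ex_left := by
    intro v hv
    obtain ⟨U, hU⟩ := cls_surj p (Θ.symm (cls L p (Units.mk0 v hv)))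
    exact ⟨U, U, _, rfl, rfl, by rw [hU, LinearEquiv.apply_symm_apply]⟩
  mul := by
    rintro _ _ _ _ ⟨U, V, rfl, rfl, h⟩ ⟨U', V', rfl, rfl, h'⟩
    exact ⟨U * U', V * V', rfl, rfl, by rw [cls_mul, cls_mul, map_add, h, h']⟩
  smul_left := by
    rintro _ _ e ⟨U, V, rfl, rfl, h⟩ he he0
    refine ⟨Units.mk0 e he0 * U, V, rfl, rfl, ?_⟩
    rw [← h]; congr 1; symm
    rw [cls_eq_iff]; simpa using he
  smul_right := by
    rintro _ _ e ⟨U, V, rfl, rfl, h⟩ he he0
    refine ⟨U, Units.mk0 e he0 * V, rfl, rfl, ?_⟩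
    rw [h, cls_eq_iff]; simpa using he
  uniq_left := by
    rintro _ _ _ ⟨U, V, rfl, rfl, h⟩ ⟨U', V', rfl, hV, h'⟩
    rw [Units.ext hV, ← h] at h'
    exact (cls_eq_iff p _ _).1 (Θ.injective h').symm
  uniq_right := by
    rintro _ _ _ ⟨U, V, rfl, rfl, h⟩ ⟨U', V', hU, rfl, h'⟩
    rw [Units.ext hU, h] at h'
    exact (cls_eq_iff p _ _).1 h'

lemma corrOf_stein {Θ : KOne K p ≃ₗ[ZMod p] KOne L p} (hΘ : IsCompatible Θ) :
    (corrOf Θ).Stein := by
  rintro _ _ _ ⟨U, V, rfl, rfl, h⟩ ⟨U', V', hU', rfl, h'⟩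
  apply par_of_mem_steinberg p
  rw [← hΘ, ← h, ← h']
  refine ⟨TensorProduct.tmul (ZMod p) (cls K p U) (cls K p U'), ?_, by simp⟩
  apply Submodule.subset_span
  refine ⟨U, U.ne_zero, hU' ▸ U'.ne_zero, ?_⟩
  congr 2
  · simp
  · ext; simp [hU']

lemma corrOf_symm_stein {Θ : KOne K p ≃ₗ[ZMod p] KOne L p} (hΘ : IsCompatible Θ) :
    (corrOf Θ).symm.Stein := by
  rintro _ _ _ ⟨U, V, rfl, rfl, h⟩ ⟨U', V', rfl, hV', h'⟩
  apply par_of_mem_steinberg p
  have h1 : TensorProduct.tmul (ZMod p) (cls L p V) (cls L p V') ∈ steinberg L p := by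
    apply Submodule.subset_span
    refine ⟨V, V.ne_zero, hV' ▸ V'.ne_zero, ?_⟩
    congr 2
    · simp
    · ext; simp [hV']
  rw [← hΘ] at h1
  obtain ⟨t, ht, ht'⟩ := h1
  have h2 : t = TensorProduct.tmul (ZMod p) (cls K p U) (cls K p U') := by
    apply (TensorProduct.congr Θ Θ).injective
    rw [TensorProduct.congr_tmul, h, h', ← ht']
    rfl
  rw [← h2]; exact ht

end Crest.Agent.R9
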